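import Vale.Agent.Lib.P195G.Basic

/-!
Graded algebras whose degree zero part is `k^r`, spanned by orthogonal idempotents (for instance
path algebras with homogeneous relations), with dimension vectors, Cartan numbers, virtual Betti
numbers and the left ideals `A e_j`. This file carries the definitions and the basic lemmas only.
-/

set_option linter.style.haveILetI false
set_option linter.unusedVariables false

open CategoryTheory Abelian

namespace Vale.Agent.Lib.P195Q

open Vale.Agent.Lib.P195G

universe u v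

variable {k : Type v} [Field k] {A : Type u} [Ring A] [Algebra k A]

/-- A grading of the algebra `A` with degree zero part spanned by orthogonal idempotents
`e_1, ..., e_r` summing to `1`, that is `A_0 = k^r`. -/
structure QAlg (k : Type v) (A : Type u) [Field k] [Ring A] [Algebra k A] where
  gr : Gr k A
  mul_mem : ∀ i j a b, a ∈ gr.piece i → b ∈ gr.piece j → a * b ∈ gr.piece (i + j)
  r : ℕ
  e : Fin r → A
  e_mem : ∀ i, e i ∈ gr.piece 0
  e_ne : ∀ i, e i ≠ 0
  e_mul_self : ∀ i, e i * e i = e i
  e_mul_ne : ∀ i j, i ≠ j → e i * e j = 0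
  sum_e : ∑ i, e i = 1
  span : ∀ a ∈ gr.piece 0, ∃ c : Fin r → k, a = ∑ i, c i • e i

/-- A grading of the `A`-module `X` compatible with the grading of `A`. -/
def IsModQ (GQ : QAlg k A) {X : Type u} [AddCommGroup X] [Module A X] [Module k X]
    (G : Gr k X) : Prop :=
  ∀ i e (a : A) (x : X), a ∈ GQ.gr.piece i → x ∈ G.piece e → a • x ∈ G.piece (i + e)

section Dim
variable {X : Type u} [AddCommGroup X] [Module A X] [Module k X] [IsScalarTower k A X]

/-- The part of degree `t` of `e_i X`. -/
def ePiece (GQ : QAlg k A) (G : Gr k X) (t : ℕ) (i : Fin GQ.r) : Submodule k X where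
  carrier := {x | x ∈ G.piece t ∧ GQ.e i • x = x}
  zero_mem' := ⟨Submodule.zero_mem _, smul_zero _⟩
  add_mem' := by
    rintro a b ⟨ha, ha'⟩ ⟨hb, hb'⟩
    exact ⟨Submodule.add_mem _ ha hb, by rw [smul_add, ha', hb']⟩
  smul_mem' := by
    rintro c a ⟨ha, ha'⟩
    exact ⟨Submodule.smul_mem _ c ha, by rw [smul_comm, ha']⟩

/-- The dimension vector of a graded module. -/
noncomputable def edim (GQ : QAlg k A) (G : Gr k X) (t : ℕ) (i : Fin GQ.r) : ℕ :=
  Module.finrank k (ePiece GQ G t i)

end Dim

/-- The corner `e_i A_t e_j`. -/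
def corner (GQ : QAlg k A) (t : ℕ) (i j : Fin GQ.r) : Submodule k A where
  carrier := {a | a ∈ GQ.gr.piece t ∧ GQ.e i * a = a ∧ a * GQ.e j = a}
  zero_mem' := ⟨Submodule.zero_mem _, mul_zero _, zero_mul _⟩
  add_mem' := by
    rintro a b ⟨ha, ha', ha''⟩ ⟨hb, hb', hb''⟩
    exact ⟨Submodule.add_mem _ ha hb, by rw [mul_add, ha', hb'], by rw [add_mul, ha'', hb'']⟩
  smul_mem' := by
    rintro c a ⟨ha, ha', ha''⟩
    refine ⟨Submodule.smul_mem _ c ha, ?_, ?_⟩
    · rw [mul_smul_comm, ha']
    · rw [smul_mul_assoc, ha'']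

/-- The graded Cartan numbers `dim e_i A_t e_j`. -/
noncomputable def cart (GQ : QAlg k A) (t : ℕ) (i j : Fin GQ.r) : ℕ :=
  Module.finrank k (corner GQ t i j)

section Pair
variable {X N : Type u} [AddCommGroup X] [Module A X] [Module k X] [IsScalarTower k A X]
  [AddCommGroup N] [Module A N] [Module k N] [IsScalarTower k A N]

/-- The sequence `b` is a sequence of virtual Betti numbers of `X`: the dimension vector of `X` is
the Cartan series times `b`. -/
def IsBetti (GQ : QAlg k A) (G : Gr k X) (b : ℕ → Fin GQ.r → ℤ) : Prop :=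
  ∀ t i, (edim GQ G t i : ℤ) =
    ∑ u ∈ Finset.range (t + 1), ∑ j, (cart GQ u i j : ℤ) * b (t - u) j

/-- The pairing of the virtual Betti numbers `b` with the dimension vector of `N`. -/
noncomputable def pair (GQ : QAlg k A) (H : Gr k N) (b : ℕ → Fin GQ.r → ℤ) (c : ℕ) : ℤ :=
  ∑ t ∈ Finset.range (H.top + 1), ∑ i, (edim GQ H t i : ℤ) * b (c + t) i

end Pair

/-- The left ideal `A e_j`. -/
def LI (GQ : QAlg k A) (j : Fin GQ.r) : Submodule A A where
  carrier := {a | a * GQ.e j = a}
  zero_mem' := zero_mul _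
  add_mem' := by
    intro a b ha hb
    show (a + b) * GQ.e j = a + b
    rw [add_mul, ha, hb]
  smul_mem' := by
    intro c a ha
    show (c • a) * GQ.e j = c • a
    rw [smul_eq_mul, mul_assoc, ha]

/-- The finite free-looking module `⊕_α A e_(j α)`: the submodule of `Fin m → A` with
`v α * e (j α) = v α`. -/
def PS (GQ : QAlg k A) {m : ℕ} (j : Fin m → Fin GQ.r) : Submodule A (Fin m → A) where
  carrier := {v | ∀ α, v α * GQ.e (j α) = v α}
  zero_mem' := fun α => zero_mul _
  add_mem' := by
    intro a b ha hb α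
    show (a α + b α) * GQ.e (j α) = a α + b α
    rw [add_mul, ha α, hb α]
  smul_mem' := by
    intro c a ha α
    show (c • a α) * GQ.e (j α) = c • a α
    rw [smul_eq_mul, mul_assoc, ha α]

end Vale.Agent.Lib.P195Q
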