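import Vale.Agent.Lib.P195Q.Basic

/-! The projective cover-like module of a graded module, built on a homogeneous `k`-basis. -/

set_option linter.style.haveILetI false
set_option linter.unusedVariables false
set_option linter.unusedSectionVars false

open CategoryTheory Abelian

namespace Vale.Agent.Lib.P195Q

open Vale.Agent.Lib.P195G

universe u v

variable {k : Type v} [Field k] {A : Type u} [Ring A] [Algebra k A] [FiniteDimensional k A]
variable {X : Type u} [AddCommGroup X] [Module A X] [Module k X] [IsScalarTower k A X]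
  [Module.Finite A X]

/-- JOB Q2a. The module `PS GQ j` is a finite projective `A`-module: it is the image of the idempotent
endomorphism `v ↦ (v α * e (j α))_α` of `Fin m → A`. -/
theorem PS_projective (GQ : QAlg k A) {m : ℕ} (j : Fin m → Fin GQ.r) :
    Module.Projective A (PS GQ j) ∧ Module.Finite A (PS GQ j) := by
  classical
  -- the idempotent projection of `Fin m → A` onto `PS GQ j`
  let π : (Fin m → A) →ₗ[A] (PS GQ j) :=
    { toFun := fun v => ⟨fun α => v α * GQ.e (j α), fun α => by
        simp only [mul_assoc, GQ.e_mul_self]⟩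
      map_add' := fun a b => by
        ext α
        simp [add_mul]
      map_smul' := fun c a => by
        ext α
        simp [mul_assoc] }
  have hπ : ∀ x : PS GQ j, π x = x := by
    intro x
    ext α
    exact x.2 α
  have hsurj : Function.Surjective π := fun x => ⟨x, hπ x⟩
  have hFin : Module.Finite A (PS GQ j) := Module.Finite.of_surjective π hsurj
  have hProj : Module.Projective A (PS GQ j) :=
    Module.Projective.of_split (PS GQ j).subtype π (LinearMap.ext fun x => hπ x)
  exact ⟨hProj, hFin⟩

section CoverAux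

omit [FiniteDimensional k A] in
lemma cov_proj_of_mem {Y : Type u} [AddCommGroup Y] [Module k Y] (G : Gr k Y) {d e : ℕ} {x : Y}
    (hx : x ∈ G.piece d) : G.proj e x = if d = e then x else 0 := by
  have hx' := (G.mem_piece_iff).1 hx
  split_ifs with h
  · subst h; exact hx'
  · rw [← hx']; exact G.proj_ne e d x (Ne.symm h)

lemma cov_proj_mem {Y : Type u} [AddCommGroup Y] [Module k Y] (G : Gr k Y) (e : ℕ) (x : Y) :
    G.proj e x ∈ G.piece e := ⟨x, rfl⟩

lemma cov_mem_ePiece {Y : Type u} [AddCommGroup Y] [Module A Y] [Module k Y] [IsScalarTower k A Y]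
    (GQ : QAlg k A) (G : Gr k Y) (t : ℕ) (i : Fin GQ.r) (x : Y) :
    x ∈ ePiece GQ G t i ↔ x ∈ G.piece t ∧ GQ.e i • x = x := Iff.rfl

lemma cov_e_smul_mem {Y : Type u} [AddCommGroup Y] [Module A Y] [Module k Y]
    (GQ : QAlg k A) (G : Gr k Y) (hG : IsModQ GQ G) (i : Fin GQ.r) {t : ℕ} {x : Y}
    (hx : x ∈ G.piece t) : GQ.e i • x ∈ G.piece t := by
  have := hG 0 t (GQ.e i) x (GQ.e_mem i) hx
  simpa using this

lemma cov_proj_e_smul {Y : Type u} [AddCommGroup Y] [Module A Y] [Module k Y]
    (GQ : QAlg k A) (G : Gr k Y) (hG : IsModQ GQ G) (i : Fin GQ.r) (t : ℕ) (x : Y) :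
    G.proj t (GQ.e i • x) = GQ.e i • G.proj t x := by
  have hsum := G.sum_proj x
  have h1 : ∀ s, G.proj t (GQ.e i • G.proj s x) = if s = t then GQ.e i • G.proj t x else 0 := by
    intro s
    rw [cov_proj_of_mem G (cov_e_smul_mem GQ G hG i (cov_proj_mem G s x))]
    split_ifs with h
    · rw [h]
    · rfl
  conv_lhs => rw [← hsum, Finset.smul_sum, map_sum]
  simp only [h1]
  rw [Finset.sum_ite_eq']
  split_ifs with h
  · rfl
  · rw [G.proj_zero t (by simpa using h)]
    simp

/-- The decomposition of a graded module into the pieces `e_i X_t`. -/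
noncomputable def cov_equiv {Y : Type u} [AddCommGroup Y] [Module A Y] [Module k Y]
    [IsScalarTower k A Y] (GQ : QAlg k A) (G : Gr k Y) (hG : IsModQ GQ G) :
    Y ≃ₗ[k] ((p : Fin (G.top + 1) × Fin GQ.r) → ePiece GQ G (p.1 : ℕ) p.2) where
  toFun x p := ⟨GQ.e p.2 • G.proj p.1 x,
    (cov_mem_ePiece GQ G _ _ _).2 ⟨cov_e_smul_mem GQ G hG p.2 (cov_proj_mem G _ x), by
      rw [← mul_smul, GQ.e_mul_self]⟩⟩
  map_add' x y := by
    funext p
    apply Subtype.ext
    simp
  map_smul' c x := by
    funext p
    apply Subtype.ext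
    show GQ.e p.2 • G.proj (p.1 : ℕ) (c • x) = c • (GQ.e p.2 • G.proj (p.1 : ℕ) x)
    rw [map_smul, smul_comm]
  invFun f := ∑ p, (f p : Y)
  left_inv x := by
    show ∑ p : Fin (G.top + 1) × Fin GQ.r, GQ.e p.2 • G.proj (p.1 : ℕ) x = x
    rw [Fintype.sum_prod_type]
    simp_rw [← Finset.sum_smul, GQ.sum_e, one_smul]
    have := G.sum_proj x
    rw [Finset.sum_range] at this
    exact this
  right_inv f := by
    funext p
    apply Subtype.ext
    show GQ.e p.2 • G.proj (p.1 : ℕ) (∑ q, (f q : Y)) = f p
    rw [map_sum, Finset.smul_sum, Finset.sum_eq_single p]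
    · have h := (cov_mem_ePiece GQ G _ _ _).1 (f p).2
      rw [(G.mem_piece_iff).1 h.1, h.2]
    · intro q _ hne
      have h := (cov_mem_ePiece GQ G _ _ _).1 (f q).2
      rw [cov_proj_of_mem G h.1]
      split_ifs with hq
      · have h2 : q.2 ≠ p.2 := by
          intro h3
          exact hne (Prod.ext (Fin.ext hq) h3)
        conv_lhs => rw [← h.2]
        rw [← mul_smul, GQ.e_mul_ne _ _ (Ne.symm h2), zero_smul]
      · simp
    · simp

lemma cov_exists_basis {Y : Type u} [AddCommGroup Y] [Module A Y] [Module k Y]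
    [IsScalarTower k A Y] [Module.Finite k Y] (GQ : QAlg k A) (G : Gr k Y) (hG : IsModQ GQ G) :
    ∃ (m : ℕ) (B : Module.Basis (Fin m) k Y) (j : Fin m → Fin GQ.r) (g : Fin m → ℕ),
      ∀ α, B α ∈ ePiece GQ G (g α) (j α) := by
  classical
  let s : (p : Fin (G.top + 1) × Fin GQ.r) →
      Module.Basis (Fin (Module.finrank k (ePiece GQ G (p.1 : ℕ) p.2))) k
        (ePiece GQ G (p.1 : ℕ) p.2) := fun p => Module.finBasis k _
  let B₀ := (Pi.basis s).map (cov_equiv GQ G hG).symm
  let eqv := Fintype.equivFin
    (Σ p : Fin (G.top + 1) × Fin GQ.r, Fin (Module.finrank k (ePiece GQ G (p.1 : ℕ) p.2)))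
  refine ⟨_, B₀.reindex eqv, fun α => (eqv.symm α).1.2, fun α => ((eqv.symm α).1.1 : ℕ),
    fun α => ?_⟩
  show (B₀.reindex eqv) α ∈ ePiece GQ G ((eqv.symm α).1.1 : ℕ) (eqv.symm α).1.2
  rw [Module.Basis.reindex_apply]
  generalize eqv.symm α = ji
  rcases ji with ⟨p, i⟩
  simp only [B₀, Module.Basis.map_apply, Pi.basis_apply]
  have : (cov_equiv GQ G hG).symm (Pi.single p (s p i)) = (s p i : Y) := by
    change ∑ p', ((Pi.single p (s p i) :
      (p : Fin (G.top + 1) × Fin GQ.r) → ePiece GQ G (p.1 : ℕ) p.2) p' : Y) = _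
    rw [Finset.sum_eq_single p]
    · simp
    · intro p' _ hne
      simp [Pi.single_eq_of_ne hne]
    · simp
  rw [this]
  exact (s p i).2

/-- The grading of a submodule stable under the projections. -/
def cov_restrict {P : Type u} [AddCommGroup P] [Module A P] [Module k P] [IsScalarTower k A P]
    (GP : Gr k P) (K : Submodule A P) (hK : ∀ e y, y ∈ K → GP.proj e y ∈ K) : Gr k K where
  proj e :=
    { toFun := fun y => ⟨GP.proj e y, hK e y y.2⟩
      map_add' := fun x y => Subtype.ext (by simp)
      map_smul' := fun c x => Subtype.ext (by simp) }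
  top := GP.top
  proj_zero e he := by
    ext y
    simp [GP.proj_zero e he]
  proj_proj e x := Subtype.ext (GP.proj_proj e x)
  proj_ne e e' x h := Subtype.ext (GP.proj_ne e e' x h)
  sum_proj x := Subtype.ext (by
    have := GP.sum_proj x
    simpa using this)

/-- The grading of the free module `Fin m → A` with shifts `deg`. -/
def cov_gr (gr : Gr k A) {m : ℕ} (deg : Fin m → ℕ) : Gr k (Fin m → A) where
  proj e := LinearMap.pi fun j =>
    if deg j ≤ e then gr.proj (e - deg j) ∘ₗ LinearMap.proj j else 0
  top := (∑ j, deg j) + gr.top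
  proj_zero e he := by
    apply LinearMap.ext
    intro v
    funext j
    have hj : deg j ≤ ∑ j, deg j :=
      Finset.single_le_sum (fun _ _ => Nat.zero_le _) (Finset.mem_univ j)
    by_cases h : deg j ≤ e
    · have : gr.top < e - deg j := by omega
      simp [h, gr.proj_zero _ this]
    · simp [h]
  proj_proj e v := by
    funext j
    by_cases h : deg j ≤ e
    · simp [h, gr.proj_proj]
    · simp [h]
  proj_ne e e' v hne := by
    funext j
    by_cases h : deg j ≤ e
    · by_cases h' : deg j ≤ e'
      · have : e - deg j ≠ e' - deg j := by omega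
        simp [h, h', gr.proj_ne _ _ _ this]
      · simp [h, h']
    · simp [h]
  sum_proj v := by
    funext j
    have hj : deg j ≤ ∑ j, deg j :=
      Finset.single_le_sum (fun _ _ => Nat.zero_le _) (Finset.mem_univ j)
    simp only [Finset.sum_apply, LinearMap.pi_apply]
    obtain ⟨d, hd⟩ : ∃ d, (∑ j, deg j) = deg j + d := ⟨_, (Nat.add_sub_cancel' hj).symm⟩
    have hsplit : (∑ j, deg j) + gr.top + 1 = deg j + (d + gr.top + 1) := by omega
    rw [hsplit, Finset.sum_range_add]
    rw [Finset.sum_eq_zero, zero_add]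
    · have h1 : ∀ x : ℕ, (if deg j ≤ deg j + x then gr.proj (deg j + x - deg j) ∘ₗ LinearMap.proj j
          else (0 : (Fin m → A) →ₗ[k] A)) v = gr.proj x (v j) := by
        intro x
        simp
      simp only [h1]
      rw [show d + gr.top + 1 = (gr.top + 1) + d by omega, Finset.sum_range_add,
        gr.sum_proj]
      rw [Finset.sum_eq_zero, add_zero]
      intro x _
      rw [gr.proj_zero _ (by omega)]
      rfl
    · intro x hx
      have : ¬ deg j ≤ x := by
        have := Finset.mem_range.1 hx
        omega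
      simp [this]

lemma cov_gr_proj_apply (gr : Gr k A) {m : ℕ} (deg : Fin m → ℕ) (e : ℕ)
    (v : Fin m → A) (j : Fin m) :
    (cov_gr gr deg).proj e v j = if deg j ≤ e then gr.proj (e - deg j) (v j) else 0 := by
  by_cases h : deg j ≤ e <;> simp [cov_gr, h]

/-- Right multiplication by `e_j` commutes with the projections of `A`. -/
lemma cov_proj_mul_e (GQ : QAlg k A) (j : Fin GQ.r) (t : ℕ) (a : A) :
    GQ.gr.proj t (a * GQ.e j) = GQ.gr.proj t a * GQ.e j := by
  have hsum := GQ.gr.sum_proj a
  have h1 : ∀ s, GQ.gr.proj t (GQ.gr.proj s a * GQ.e j) =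
      if s = t then GQ.gr.proj t a * GQ.e j else 0 := by
    intro s
    have hm := GQ.mul_mem s 0 _ _ (cov_proj_mem GQ.gr s a) (GQ.e_mem j)
    rw [add_zero] at hm
    rw [cov_proj_of_mem GQ.gr hm]
    split_ifs with h
    · rw [h]
    · rfl
  conv_lhs => rw [← hsum, Finset.sum_mul, map_sum]
  simp only [h1]
  rw [Finset.sum_ite_eq']
  split_ifs with h
  · rfl
  · rw [GQ.gr.proj_zero t (by simpa using h)]
    simp

lemma cov_ps_stable (GQ : QAlg k A) {m : ℕ} (j : Fin m → Fin GQ.r) (g : Fin m → ℕ) (e : ℕ)
    (y : Fin m → A) (hy : y ∈ PS GQ j) : (cov_gr GQ.gr g).proj e y ∈ PS GQ j := by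
  intro α
  rw [cov_gr_proj_apply]
  split_ifs with h
  · rw [← cov_proj_mul_e, hy α]
  · simp

/-- The grading of `PS GQ j` with shifts `g`. -/
def cov_GP (GQ : QAlg k A) {m : ℕ} (j : Fin m → Fin GQ.r) (g : Fin m → ℕ) : Gr k (PS GQ j) :=
  cov_restrict (cov_gr GQ.gr g) (PS GQ j) (cov_ps_stable GQ j g)

lemma cov_GP_apply (GQ : QAlg k A) {m : ℕ} (j : Fin m → Fin GQ.r) (g : Fin m → ℕ) (e : ℕ)
    (v : PS GQ j) (α : Fin m) :
    ((cov_GP GQ j g).proj e v : Fin m → A) α =
      if g α ≤ e then GQ.gr.proj (e - g α) ((v : Fin m → A) α) else 0 :=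
  cov_gr_proj_apply GQ.gr g e _ α

lemma cov_mem_GP_piece (GQ : QAlg k A) {m : ℕ} (j : Fin m → Fin GQ.r) (g : Fin m → ℕ) (e : ℕ)
    (v : PS GQ j) : v ∈ (cov_GP GQ j g).piece e ↔
      ∀ α, (g α ≤ e → (v : Fin m → A) α ∈ GQ.gr.piece (e - g α)) ∧
        (e < g α → (v : Fin m → A) α = 0) := by
  rw [Gr.mem_piece_iff]
  constructor
  · intro h α
    have hα := congrFun (congrArg Subtype.val h) α
    rw [cov_GP_apply] at hα
    constructor
    · intro hle
      rw [if_pos hle] at hα
      exact (GQ.gr.mem_piece_iff).2 hα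
    · intro hlt
      rw [if_neg (by omega)] at hα
      exact hα.symm
  · intro h
    apply Subtype.ext
    funext α
    rw [cov_GP_apply]
    by_cases hle : g α ≤ e
    · rw [if_pos hle]
      exact (GQ.gr.mem_piece_iff).1 ((h α).1 hle)
    · rw [if_neg hle]
      exact ((h α).2 (by omega)).symm

lemma cov_GP_isMod (GQ : QAlg k A) {m : ℕ} (j : Fin m → Fin GQ.r) (g : Fin m → ℕ) :
    IsModQ GQ (cov_GP GQ j g) := by
  intro i e a v ha hv
  rw [cov_mem_GP_piece] at hv ⊢
  intro α
  have hc : ((a • v : PS GQ j) : Fin m → A) α = a * (v : Fin m → A) α := rfl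
  rw [hc]
  constructor
  · intro hle
    by_cases hd : g α ≤ e
    · have h2 := GQ.mul_mem _ _ _ _ ha ((hv α).1 hd)
      have h3 : i + (e - g α) = i + e - g α := by omega
      rwa [h3] at h2
    · rw [(hv α).2 (by omega), mul_zero]
      exact Submodule.zero_mem _
  · intro hlt
    rw [(hv α).2 (by omega), mul_zero]

lemma cov_smul_proj {Y : Type u} [AddCommGroup Y] [Module A Y] [Module k Y]
    (GQ : QAlg k A) (G : Gr k Y) (hG : IsModQ GQ G) {d : ℕ} {x : Y}
    (hx : x ∈ G.piece d) (a : A) (e : ℕ) :
    G.proj e (a • x) = if d ≤ e then GQ.gr.proj (e - d) a • x else 0 := by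
  have ha : a = ∑ t ∈ Finset.range (GQ.gr.top + 1), GQ.gr.proj t a := (GQ.gr.sum_proj a).symm
  have h1 : ∀ t, G.proj e (GQ.gr.proj t a • x) = if t + d = e then GQ.gr.proj t a • x else 0 :=
    fun t => cov_proj_of_mem G (hG t d _ x (cov_proj_mem GQ.gr t a) hx)
  conv_lhs => rw [ha, Finset.sum_smul, map_sum]
  simp only [h1]
  split_ifs with h
  · by_cases ht : e - d ≤ GQ.gr.top
    · rw [Finset.sum_eq_single (e - d)]
      · rw [if_pos (by omega)]
      · intro t _ hne
        rw [if_neg (by omega)]
      · intro hnot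
        exact absurd (Finset.mem_range.2 (by omega)) hnot
    · rw [GQ.gr.proj_zero _ (by omega)]
      simp only [LinearMap.zero_apply, zero_smul]
      apply Finset.sum_eq_zero
      intro t ht'
      have := Finset.mem_range.1 ht'
      rw [if_neg (by omega)]
  · apply Finset.sum_eq_zero
    intro t _
    rw [if_neg (by omega)]

/-- An element of `A_0 e_j` is a scalar multiple of `e_j`. -/
lemma cov_deg_zero (GQ : QAlg k A) (i : Fin GQ.r) (a : A) (ha : a ∈ GQ.gr.piece 0)
    (h : a * GQ.e i = a) : ∃ c : k, a = c • GQ.e i := by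
  classical
  obtain ⟨c, hc⟩ := GQ.span a ha
  refine ⟨c i, ?_⟩
  rw [← h]
  conv_lhs => rw [hc]
  rw [Finset.sum_mul, Finset.sum_eq_single i]
  · rw [smul_mul_assoc, GQ.e_mul_self]
  · intro b _ hb
    rw [smul_mul_assoc, GQ.e_mul_ne _ _ hb, smul_zero]
  · simp

/-- The map `μ v = ∑ α, v α • b α`. -/
noncomputable def cov_mu (GQ : QAlg k A) {m : ℕ} (j : Fin m → Fin GQ.r)
    {Y : Type u} [AddCommGroup Y] [Module A Y] (b : Fin m → Y) : PS GQ j →ₗ[A] Y where
  toFun v := ∑ α, (v : Fin m → A) α • b α
  map_add' x y := by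
    simp only [Submodule.coe_add, Pi.add_apply, add_smul, Finset.sum_add_distrib]
  map_smul' c x := by
    simp only [Submodule.coe_smul, Pi.smul_apply, smul_eq_mul, mul_smul, RingHom.id_apply,
      Finset.smul_sum]

lemma cov_mu_apply (GQ : QAlg k A) {m : ℕ} (j : Fin m → Fin GQ.r)
    {Y : Type u} [AddCommGroup Y] [Module A Y] (b : Fin m → Y) (v : PS GQ j) :
    cov_mu GQ j b v = ∑ α, (v : Fin m → A) α • b α := rfl

/-- The dimension vector of `PS GQ j` with shifts `g`. -/
lemma cov_edim (GQ : QAlg k A) {m : ℕ} (j : Fin m → Fin GQ.r) (g : Fin m → ℕ) (t : ℕ)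
    (a : Fin GQ.r) :
    (edim GQ (cov_GP GQ j g) t a : ℤ) =
      ∑ α, if g α ≤ t then (cart GQ (t - g α) a (j α) : ℤ) else 0 := by
  classical
  let Q : Fin m → Submodule k A := fun α =>
    if g α ≤ t then corner GQ (t - g α) a (j α) else ⊥
  let E : ePiece GQ (cov_GP GQ j g) t a ≃ₗ[k] ((α : Fin m) → Q α) :=
    { toFun := fun v α => ⟨((v : PS GQ j) : Fin m → A) α, by
        have h := (cov_mem_ePiece GQ _ _ _ _).1 v.2
        have h1 := (cov_mem_GP_piece GQ j g t _).1 h.1 α
        show _ ∈ (if g α ≤ t then corner GQ (t - g α) a (j α) else ⊥ : Submodule k A)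
        by_cases hle : g α ≤ t
        · rw [if_pos hle]
          refine ⟨h1.1 hle, ?_, (v : PS GQ j).2 α⟩
          exact congrFun (congrArg Subtype.val h.2) α
        · rw [if_neg hle]
          exact h1.2 (by omega)⟩
      map_add' := fun x y => rfl
      map_smul' := fun c x => rfl
      invFun := fun w => ⟨⟨fun α => (w α : A), by
          intro α
          have hw := (w α).2
          show _ * _ = _
          by_cases hle : g α ≤ t
          · have hw' : ((w α : Q α) : A) ∈ corner GQ (t - g α) a (j α) := by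
              have : Q α = corner GQ (t - g α) a (j α) := if_pos hle
              rw [← this]
              exact hw
            exact hw'.2.2
          · have hw' : ((w α : Q α) : A) ∈ (⊥ : Submodule k A) := by
              have : Q α = ⊥ := if_neg hle
              rw [← this]
              exact hw
            have hw0 : ((w α : Q α) : A) = 0 := hw'
            show ((w α : Q α) : A) * GQ.e (j α) = ((w α : Q α) : A)
            rw [hw0, zero_mul]⟩, by
          refine (cov_mem_ePiece GQ _ _ _ _).2 ⟨?_, ?_⟩
          · rw [cov_mem_GP_piece]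
            intro α
            have hw := (w α).2
            constructor
            · intro hle
              have hw' : ((w α : Q α) : A) ∈ corner GQ (t - g α) a (j α) := by
                have : Q α = corner GQ (t - g α) a (j α) := if_pos hle
                rw [← this]
                exact hw
              exact hw'.1
            · intro hlt
              have hw' : ((w α : Q α) : A) ∈ (⊥ : Submodule k A) := by
                have : Q α = ⊥ := if_neg (by omega)
                rw [← this]
                exact hw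
              exact hw'
          · apply Subtype.ext
            funext α
            show GQ.e a * ((w α : Q α) : A) = _
            have hw := (w α).2
            by_cases hle : g α ≤ t
            · have hw' : ((w α : Q α) : A) ∈ corner GQ (t - g α) a (j α) := by
                have : Q α = corner GQ (t - g α) a (j α) := if_pos hle
                rw [← this]
                exact hw
              exact hw'.2.1
            · have hw' : ((w α : Q α) : A) ∈ (⊥ : Submodule k A) := by
                have : Q α = ⊥ := if_neg hle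
                rw [← this]
                exact hw
              have hw0 : ((w α : Q α) : A) = 0 := hw'
              show _ = ((w α : Q α) : A)
              rw [hw0, mul_zero]⟩
      left_inv := fun v => rfl
      right_inv := fun w => rfl }
  have h1 : edim GQ (cov_GP GQ j g) t a = ∑ α, Module.finrank k (Q α) := by
    unfold edim
    rw [E.finrank_eq, Module.finrank_pi_fintype]
  rw [h1, Nat.cast_sum]
  refine Finset.sum_congr rfl fun α _ => ?_
  by_cases hle : g α ≤ t
  · rw [if_pos hle]
    have : Q α = corner GQ (t - g α) a (j α) := if_pos hle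
    rw [this]
    rfl
  · rw [if_neg hle]
    have : Q α = ⊥ := if_neg hle
    rw [this]
    simp

/-- The element `e_(j α)` in position `α`. -/
def cov_single (GQ : QAlg k A) {m : ℕ} (j : Fin m → Fin GQ.r) (α : Fin m) : PS GQ j :=
  ⟨Pi.single α (GQ.e (j α)), by
    intro β
    by_cases h : β = α
    · subst h
      simp [GQ.e_mul_self]
    · simp [Pi.single_eq_of_ne h]⟩

lemma cov_single_mem (GQ : QAlg k A) {m : ℕ} (j : Fin m → Fin GQ.r) (g : Fin m → ℕ) (α : Fin m) :
    cov_single GQ j α ∈ (cov_GP GQ j g).piece (g α) := by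
  rw [cov_mem_GP_piece]
  intro β
  by_cases h : β = α
  · subst h
    refine ⟨fun _ => ?_, fun hlt => absurd hlt (lt_irrefl _)⟩
    simp only [cov_single, Pi.single_eq_same, Nat.sub_self]
    exact GQ.e_mem _
  · have h0 : ((cov_single GQ j α : PS GQ j) : Fin m → A) β = 0 := by
      simp [cov_single, Pi.single_eq_of_ne h]
    rw [h0]
    exact ⟨fun _ => Submodule.zero_mem _, fun _ => rfl⟩

lemma cov_sum_single (GQ : QAlg k A) {m : ℕ} (j : Fin m → Fin GQ.r) (v : PS GQ j) :
    ∑ α, ((v : Fin m → A) α) • cov_single GQ j α = v := by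
  classical
  apply Subtype.ext
  funext β
  have h1 : ((∑ α, ((v : Fin m → A) α) • cov_single GQ j α : PS GQ j) : Fin m → A) β =
      ∑ α, (v : Fin m → A) α * ((cov_single GQ j α : PS GQ j) : Fin m → A) β := by
    rw [AddSubmonoidClass.coe_finsetSum, Finset.sum_apply]
    rfl
  rw [h1, Finset.sum_eq_single β]
  · simp only [cov_single, Pi.single_eq_same]
    exact v.2 β
  · intro α _ hne
    simp [cov_single, Pi.single_eq_of_ne (Ne.symm hne)]
  · simp

/-- The Hom spaces out of `PS GQ j` with shifts `g`. -/
lemma cov_hdim (GQ : QAlg k A) {m : ℕ} (j : Fin m → Fin GQ.r) (g : Fin m → ℕ)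
    {N : Type u} [AddCommGroup N] [Module A N] [Module k N] [IsScalarTower k A N]
    [Module.Finite A N] (H : Gr k N) (hH : IsModQ GQ H) (c : ℕ) :
    (hdim (A := A) (cov_GP GQ j g) H c : ℤ) =
      ∑ α, if c ≤ g α then (edim GQ H (g α - c) (j α) : ℤ) else 0 := by
  classical
  haveI : Module.Finite k N := Module.Finite.trans A N
  let Q : Fin m → Submodule k N := fun α =>
    if c ≤ g α then ePiece GQ H (g α - c) (j α) else ⊥
  have hQ1 : ∀ α, c ≤ g α → Q α = ePiece GQ H (g α - c) (j α) := fun α h => if_pos h
  have hQ2 : ∀ α, ¬ c ≤ g α → Q α = ⊥ := fun α h => if_neg h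
  have hQe : ∀ α (x : N), x ∈ Q α → GQ.e (j α) • x = x := by
    intro α x hx
    by_cases h : c ≤ g α
    · rw [hQ1 α h] at hx
      exact hx.2
    · rw [hQ2 α h] at hx
      have : x = 0 := hx
      rw [this, smul_zero]
  -- the inverse map
  let lin : ((α : Fin m) → Q α) → (PS GQ j →ₗ[A] N) := fun w => cov_mu GQ j (fun α => (w α : N))
  have hlin : ∀ w, lin w ∈ Hom (A := A) (cov_GP GQ j g) H c := by
    intro w e x hx
    have hx' := (cov_mem_GP_piece GQ j g e x).1 hx
    have hterm : ∀ α, (c ≤ e → (x : Fin m → A) α • (w α : N) ∈ H.piece (e - c)) ∧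
        (e < c → (x : Fin m → A) α • (w α : N) = 0) := by
      intro α
      have hwα := (w α).2
      by_cases hde : g α ≤ e
      · by_cases hcd : c ≤ g α
        · have hwα' : ((w α : Q α) : N) ∈ ePiece GQ H (g α - c) (j α) := by
            rw [← hQ1 α hcd]
            exact hwα
          have h3 := hH _ _ _ _ ((hx' α).1 hde) hwα'.1
          have h4 : e - g α + (g α - c) = e - c := by omega
          rw [h4] at h3
          exact ⟨fun _ => h3, fun hec => by omega⟩
        · have hwα' : ((w α : Q α) : N) ∈ (⊥ : Submodule k N) := by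
            rw [← hQ2 α hcd]
            exact hwα
          have h0 : ((w α : Q α) : N) = 0 := hwα'
          rw [h0, smul_zero]
          exact ⟨fun _ => Submodule.zero_mem _, fun _ => rfl⟩
      · rw [(hx' α).2 (by omega), zero_smul]
        exact ⟨fun _ => Submodule.zero_mem _, fun _ => rfl⟩
    have hlx : lin w x = ∑ α, (x : Fin m → A) α • (w α : N) := rfl
    refine ⟨fun hce => ?_, fun hec => ?_⟩
    · rw [hlx]
      exact Submodule.sum_mem _ fun α _ => (hterm α).1 hce
    · rw [hlx]
      exact Finset.sum_eq_zero fun α _ => (hterm α).2 hec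
  have hfwd : ∀ (u : Hom (A := A) (cov_GP GQ j g) H c) (α : Fin m),
      ((u : PS GQ j →ₗ[A] N) (cov_single GQ j α)) ∈ Q α := by
    intro u α
    have h := u.2 (g α) _ (cov_single_mem GQ j g α)
    by_cases hd : c ≤ g α
    · rw [hQ1 α hd]
      refine (cov_mem_ePiece GQ H _ _ _).2 ⟨h.1 hd, ?_⟩
      rw [← map_smul]
      congr 1
      apply Subtype.ext
      funext β
      show GQ.e (j α) * ((cov_single GQ j α : PS GQ j) : Fin m → A) β = _
      by_cases hb : β = α
      · subst hb
        simp [cov_single, GQ.e_mul_self]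
      · simp [cov_single, Pi.single_eq_of_ne hb]
    · rw [hQ2 α hd]
      exact h.2 (by omega)
  let F : Hom (A := A) (cov_GP GQ j g) H c ≃ₗ[k] ((α : Fin m) → Q α) :=
    { toFun := fun u α => ⟨(u : PS GQ j →ₗ[A] N) (cov_single GQ j α), hfwd u α⟩
      map_add' := fun x y => rfl
      map_smul' := fun r x => rfl
      invFun := fun w => ⟨lin w, hlin w⟩
      left_inv := by
        intro u
        apply Subtype.ext
        apply LinearMap.ext
        intro v
        show ∑ α, (v : Fin m → A) α • (u : PS GQ j →ₗ[A] N) (cov_single GQ j α) = _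
        conv_rhs => rw [← cov_sum_single GQ j v]
        rw [map_sum]
        exact Finset.sum_congr rfl fun α _ => (map_smul _ _ _).symm
      right_inv := by
        intro w
        funext α
        apply Subtype.ext
        show ∑ β, ((cov_single GQ j α : PS GQ j) : Fin m → A) β • (w β : N) = (w α : N)
        rw [Finset.sum_eq_single α]
        · simp only [cov_single, Pi.single_eq_same]
          exact hQe α _ (w α).2
        · intro β _ hne
          simp [cov_single, Pi.single_eq_of_ne hne]
        · simp }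
  have h1 : hdim (A := A) (cov_GP GQ j g) H c = ∑ α, Module.finrank k (Q α) := by
    unfold hdim
    rw [F.finrank_eq, Module.finrank_pi_fintype]
  rw [h1, Nat.cast_sum]
  refine Finset.sum_congr rfl fun α _ => ?_
  by_cases hd : c ≤ g α
  · rw [if_pos hd, hQ1 α hd]
    rfl
  · rw [if_neg hd, hQ2 α hd]
    simp

end CoverAux

/-- JOB Q2b. The cover. Since `X = ⊕_(t,i) e_i X_t` (the `e_i` commute with `G.proj`, because
`e_i ∈ A_0`), there is a `k`-basis `b : Fin m → X` with `b α ∈ ePiece GQ G (g α) (j α)`.
`P = PS GQ j` has the grading `(GP.proj e v) α = GQ.gr.proj (e - g α) (v α)` if `g α ≤ e` and `0`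
otherwise; `μ v = ∑ α, v α • b α`; `GY` is the restriction of `GP` to `ker μ`.
Low degree: `(ker μ)_e = 0` for `e ≤ l`: for `e < l` because `P_e = 0`; for `e = l` because `v ∈ P_l`
has `v α = 0` unless `g α = l`, and then `v α ∈ A_0 e_(j α) = k e_(j α)`, so that `v α • b α` is a scalar
multiple of `b α` and `μ v = 0` gives `v = 0` by linear independence. -/
theorem exists_cover (GQ : QAlg k A) (G : Gr k X) (hG : IsModQ GQ G) (l : ℕ) (hl : G.LowGE l) :
    ∃ (m : ℕ) (j : Fin m → Fin GQ.r) (g : Fin m → ℕ) (GP : Gr k (PS GQ j))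
      (μ : (PS GQ j) →ₗ[A] X) (GY : Gr k (LinearMap.ker μ)),
      IsModQ GQ GP ∧ IsModQ GQ GY ∧ Function.Surjective μ ∧
      (∀ e x, G.proj e (μ x) = μ (GP.proj e x)) ∧
      (∀ e (y : LinearMap.ker μ), GP.proj e y = (GY.proj e y : PS GQ j)) ∧
      GY.LowGE (l + 1) ∧
      (∀ t a, (edim GQ GP t a : ℤ) =
        ∑ α, if g α ≤ t then (cart GQ (t - g α) a (j α) : ℤ) else 0) ∧
      (∀ (N : Type u) [AddCommGroup N] [Module A N] [Module k N] [IsScalarTower k A N]
        [Module.Finite A N] (H : Gr k N), IsModQ GQ H → ∀ c,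
        (hdim (A := A) GP H c : ℤ) =
          ∑ α, if c ≤ g α then (edim GQ H (g α - c) (j α) : ℤ) else 0) := by
  classical
  haveI : Module.Finite k X := Module.Finite.trans A X
  obtain ⟨m, B, j, g, hB⟩ := cov_exists_basis GQ G hG
  have hBp : ∀ α, B α ∈ G.piece (g α) := fun α => ((cov_mem_ePiece GQ G _ _ _).1 (hB α)).1
  have hBe : ∀ α, GQ.e (j α) • B α = B α := fun α => ((cov_mem_ePiece GQ G _ _ _).1 (hB α)).2
  let GP := cov_GP GQ j g
  let μ : (PS GQ j) →ₗ[A] X := cov_mu GQ j (fun α => B α)
  have hμ : ∀ v : PS GQ j, μ v = ∑ α, (v : Fin m → A) α • B α := fun v => rfl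
  have hgr : ∀ e v, G.proj e (μ v) = μ (GP.proj e v) := by
    intro e v
    rw [hμ, hμ, map_sum]
    apply Finset.sum_congr rfl
    intro α _
    rw [cov_smul_proj GQ G hG (hBp α), show ((GP.proj e v : PS GQ j) : Fin m → A) α = _ from
      cov_GP_apply GQ j g e v α]
    split_ifs with h
    · rfl
    · simp
  have hK : ∀ e y, y ∈ LinearMap.ker μ → GP.proj e y ∈ LinearMap.ker μ := by
    intro e y hy
    rw [LinearMap.mem_ker] at hy ⊢
    rw [← hgr, hy, map_zero]
  have hdeg : ∀ α, l ≤ g α := by
    intro α
    by_contra hlt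
    have h0 : G.proj (g α) = 0 := hl _ (by omega)
    have h1 : B α = 0 := by
      rw [← (G.mem_piece_iff).1 (hBp α), h0]
      rfl
    exact B.ne_zero α h1
  refine ⟨m, j, g, GP, μ, cov_restrict GP _ hK, cov_GP_isMod GQ j g, ?_, ?_, hgr,
    fun e y => rfl, ?_, cov_edim GQ j g, ?_⟩
  · intro i e a y ha hy
    rw [Gr.mem_piece_iff]
    apply Subtype.ext
    have h1 : (y : PS GQ j) ∈ GP.piece e := by
      rw [Gr.mem_piece_iff]
      exact congrArg Subtype.val ((Gr.mem_piece_iff _).1 hy)
    have h2 := cov_GP_isMod GQ j g i e a _ ha h1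
    exact (Gr.mem_piece_iff _).1 h2
  · intro x
    refine ⟨⟨fun α => B.repr x α • GQ.e (j α), fun α => ?_⟩, ?_⟩
    · rw [smul_mul_assoc, GQ.e_mul_self]
    · rw [hμ]
      conv_rhs => rw [← B.sum_repr x]
      apply Finset.sum_congr rfl
      intro α _
      show (B.repr x α • GQ.e (j α)) • B α = _
      rw [smul_assoc, hBe]
  · intro e he
    apply LinearMap.ext
    intro y
    apply Subtype.ext
    show GP.proj e (y : PS GQ j) = 0
    have hyker : μ (GP.proj e (y : PS GQ j)) = 0 := LinearMap.mem_ker.1 (hK e y y.2)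
    have hc : ∀ α, ∃ c : k, ((GP.proj e (y : PS GQ j) : PS GQ j) : Fin m → A) α = c • GQ.e (j α) := by
      intro α
      by_cases hd : g α ≤ e
      · have h0 : ((GP.proj e (y : PS GQ j) : PS GQ j) : Fin m → A) α =
            GQ.gr.proj (e - g α) (((y : PS GQ j) : Fin m → A) α) := by
          have := cov_GP_apply GQ j g e (y : PS GQ j) α
          rw [if_pos hd] at this
          exact this
        have h1 := hdeg α
        have h2 : e - g α = 0 := by omega
        rw [h2] at h0
        apply cov_deg_zero GQ (j α)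
        · rw [h0]
          exact cov_proj_mem GQ.gr 0 _
        · exact (GP.proj e (y : PS GQ j)).2 α
      · refine ⟨0, ?_⟩
        have := cov_GP_apply GQ j g e (y : PS GQ j) α
        rw [if_neg hd] at this
        rw [zero_smul]
        exact this
    choose c hc using hc
    have hsum : ∑ α, c α • B α = 0 := by
      rw [← hyker, hμ]
      apply Finset.sum_congr rfl
      intro α _
      rw [hc α, smul_assoc, hBe]
    have hc0 := Fintype.linearIndependent_iff.1 B.linearIndependent c hsum
    apply Subtype.ext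
    funext α
    rw [hc α, hc0 α, zero_smul]
    rfl
  · intro N _ _ _ _ _ H hH c
    exact cov_hdim GQ j g H hH c

/-- JOB Q2c. The multiplicities `b^P t a = #{α | g α = t, j α = a}` are virtual Betti numbers of the
cover, and they compute `hdim`. Purely formal from the two numerical formulas of `exists_cover`,
stated separately so that `Descent` does not see the sums over `α`. `hN` says that `H` lives in degrees
`≤ H.top` (it is part of `Gr`). -/
theorem betti_of_cover (GQ : QAlg k A) {P : Type u} [AddCommGroup P] [Module A P] [Module k P]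
    [IsScalarTower k A P] (GP : Gr k P) {m : ℕ} (j : Fin m → Fin GQ.r) (g : Fin m → ℕ)
    (h1 : ∀ t a, (edim GQ GP t a : ℤ) =
        ∑ α, if g α ≤ t then (cart GQ (t - g α) a (j α) : ℤ) else 0) :
    ∃ b : ℕ → Fin GQ.r → ℤ, IsBetti GQ GP b ∧
      ∀ (N : Type u) [AddCommGroup N] [Module A N] [Module k N] [IsScalarTower k A N]
        [Module.Finite A N] (H : Gr k N) (c : ℕ),
        (∑ α, if c ≤ g α then (edim GQ H (g α - c) (j α) : ℤ) else 0) = pair GQ H b c := by
  classical
  refine ⟨fun t a => ((Finset.univ.filter fun α => g α = t ∧ j α = a).card : ℤ), ?_, ?_⟩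
  · intro t i
    rw [h1 t i]
    -- exchange the sums
    have key : ∀ u ∈ Finset.range (t + 1), ∑ a, (cart GQ u i a : ℤ) *
          ((Finset.univ.filter fun α => g α = t - u ∧ j α = a).card : ℤ)
        = ∑ α, if g α = t - u then (cart GQ u i (j α) : ℤ) else 0 := by
      intro u _
      have h2 : ∀ a, (cart GQ u i a : ℤ) *
          ((Finset.univ.filter fun α => g α = t - u ∧ j α = a).card : ℤ)
          = ∑ α, if g α = t - u ∧ j α = a then (cart GQ u i (j α) : ℤ) else 0 := by
        intro a
        rw [Finset.card_filter]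
        push_cast
        rw [Finset.mul_sum]
        refine Finset.sum_congr rfl fun α _ => ?_
        by_cases h : g α = t - u ∧ j α = a
        · rw [if_pos h, if_pos h, h.2, mul_one]
        · rw [if_neg h, if_neg h, mul_zero]
      simp_rw [h2]
      rw [Finset.sum_comm]
      refine Finset.sum_congr rfl fun α _ => ?_
      by_cases h : g α = t - u
      · simp [h]
      · simp [h]
    rw [Finset.sum_congr rfl key, Finset.sum_comm]
    refine Finset.sum_congr rfl fun α _ => ?_
    by_cases hg : g α ≤ t
    · rw [if_pos hg, Finset.sum_eq_single (t - g α)]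
      · have : g α = t - (t - g α) := by omega
        rw [if_pos this]
      · intro u hu hne
        have hu' : u ≤ t := Nat.lt_succ_iff.mp (Finset.mem_range.mp hu)
        rw [if_neg]
        omega
      · intro h
        exact absurd (Finset.mem_range.mpr (by omega)) h
    · rw [if_neg hg]
      symm
      refine Finset.sum_eq_zero fun u hu => ?_
      have hu' : u ≤ t := Nat.lt_succ_iff.mp (Finset.mem_range.mp hu)
      rw [if_neg]
      omega
  · intro N _ _ _ _ _ H c
    unfold pair
    have h3 : ∀ s ∈ Finset.range (H.top + 1), ∑ i, (edim GQ H s i : ℤ) *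
          ((Finset.univ.filter fun α => g α = c + s ∧ j α = i).card : ℤ)
        = ∑ α, if g α = c + s then (edim GQ H s (j α) : ℤ) else 0 := by
      intro s _
      have h2 : ∀ a, (edim GQ H s a : ℤ) *
          ((Finset.univ.filter fun α => g α = c + s ∧ j α = a).card : ℤ)
          = ∑ α, if g α = c + s ∧ j α = a then (edim GQ H s (j α) : ℤ) else 0 := by
        intro a
        rw [Finset.card_filter]
        push_cast
        rw [Finset.mul_sum]
        refine Finset.sum_congr rfl fun α _ => ?_
        by_cases h : g α = c + s ∧ j α = a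
        · rw [if_pos h, if_pos h, h.2, mul_one]
        · rw [if_neg h, if_neg h, mul_zero]
      simp_rw [h2]
      rw [Finset.sum_comm]
      refine Finset.sum_congr rfl fun α _ => ?_
      by_cases h : g α = c + s
      · simp [h]
      · simp [h]
    rw [Finset.sum_congr rfl h3, Finset.sum_comm]
    refine Finset.sum_congr rfl fun α _ => ?_
    by_cases hg : c ≤ g α
    · rw [if_pos hg]
      by_cases hs : g α - c ≤ H.top
      · rw [Finset.sum_eq_single (g α - c)]
        · have : g α = c + (g α - c) := by omega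
          rw [if_pos this]
        · intro u hu hne
          rw [if_neg]
          omega
        · intro h
          exact absurd (Finset.mem_range.mpr (by omega)) h
      · have h0 : (edim GQ H (g α - c) (j α) : ℤ) = 0 := by
          have hb : ePiece GQ H (g α - c) (j α) = ⊥ := by
            rw [Submodule.eq_bot_iff]
            rintro x ⟨hx, -⟩
            have hx' := (Gr.mem_piece_iff H).1 hx
            rw [H.proj_zero _ (by omega)] at hx'
            simpa using hx'.symm
          rw [edim, hb]
          simp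
        rw [h0]
        symm
        refine Finset.sum_eq_zero fun u hu => ?_
        have hu' : u ≤ H.top := Nat.lt_succ_iff.mp (Finset.mem_range.mp hu)
        rw [if_neg]
        omega
    · rw [if_neg hg]
      symm
      refine Finset.sum_eq_zero fun u hu => ?_
      rw [if_neg]
      omega

end Vale.Agent.Lib.P195Q
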