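import Vale.Agent.Lib.P195Q.Exact
import Vale.Agent.Lib.P195Q.Cover
import Vale.Agent.Lib.P195.ExtLemmas

/-! The numerical formula for `hdim` by descent along syzygies. -/

set_option linter.style.haveILetI false
set_option linter.unusedVariables false

open CategoryTheory Abelian

namespace Vale.Agent.Lib.P195Q

open Vale.Agent.Lib.P195G

universe u v

variable {k : Type v} [Field k] {A : Type u} [Ring A] [Algebra k A] [FiniteDimensional k A]

/-- The recursion for virtual Betti numbers. -/
private noncomputable def bettiRec (GQ : QAlg k A) {X : Type u} [AddCommGroup X] [Module A X]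
    [Module k X] [IsScalarTower k A X] (G : Gr k X) (t : ℕ) (i : Fin GQ.r) : ℤ :=
  (edim GQ G t i : ℤ) -
    ∑ u : Fin t, ∑ j, (cart GQ ((u : ℕ) + 1) i j : ℤ) * bettiRec GQ G (t - ((u : ℕ) + 1)) j
termination_by t
decreasing_by
  have := u.2
  omega

private lemma edim_eq_zero (GQ : QAlg k A) {X : Type u} [AddCommGroup X] [Module A X]
    [Module k X] [IsScalarTower k A X] (G : Gr k X) {t : ℕ} (h : G.proj t = 0) (i : Fin GQ.r) :
    edim GQ G t i = 0 := by
  have hb : ePiece GQ G t i = ⊥ := by
    rw [Submodule.eq_bot_iff]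
    rintro x ⟨hx, -⟩
    have hx' := (Gr.mem_piece_iff G).1 hx
    rw [h] at hx'
    simpa using hx'.symm
  rw [edim, hb]
  exact finrank_bot k X

private lemma bettiRec_eq_zero (GQ : QAlg k A) {X : Type u} [AddCommGroup X] [Module A X]
    [Module k X] [IsScalarTower k A X] (G : Gr k X) (l : ℕ) (hl : G.LowGE l) :
    ∀ t, t < l → ∀ i, bettiRec GQ G t i = 0 := by
  intro t
  induction t using Nat.strong_induction_on with
  | _ t ih =>
    intro ht i
    rw [bettiRec, edim_eq_zero GQ G (hl t ht) i]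
    have : ∑ u : Fin t, ∑ j, (cart GQ ((u : ℕ) + 1) i j : ℤ) *
        bettiRec GQ G (t - ((u : ℕ) + 1)) j = 0 := by
      refine Finset.sum_eq_zero fun u _ => Finset.sum_eq_zero fun j _ => ?_
      have hu := u.2
      rw [ih (t - ((u : ℕ) + 1)) (by omega) (by omega) j, mul_zero]
    rw [this]
    simp

private lemma bettiRec_isBetti (GQ : QAlg k A)
    (hcart : ∀ i j, cart GQ 0 i j = if i = j then 1 else 0)
    {X : Type u} [AddCommGroup X] [Module A X] [Module k X] [IsScalarTower k A X]
    (G : Gr k X) : IsBetti GQ G (bettiRec GQ G) := by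
  intro t i
  rw [Finset.sum_range_succ']
  have h0 : ∑ j, (cart GQ 0 i j : ℤ) * bettiRec GQ G (t - 0) j = bettiRec GQ G t i := by
    simp only [hcart, Nat.sub_zero]
    simp
  rw [h0]
  have h1 : bettiRec GQ G t i = (edim GQ G t i : ℤ) -
      ∑ u : Fin t, ∑ j, (cart GQ ((u : ℕ) + 1) i j : ℤ) *
        bettiRec GQ G (t - ((u : ℕ) + 1)) j := by
    rw [bettiRec]
  have h2 : ∑ u : Fin t, ∑ j, (cart GQ ((u : ℕ) + 1) i j : ℤ) *
        bettiRec GQ G (t - ((u : ℕ) + 1)) j
      = ∑ u ∈ Finset.range t, ∑ j, (cart GQ (u + 1) i j : ℤ) *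
        bettiRec GQ G (t - (u + 1)) j :=
    Fin.sum_univ_eq_sum_range (fun u => ∑ j, (cart GQ (u + 1) i j : ℤ) *
        bettiRec GQ G (t - (u + 1)) j) t
  rw [h1, h2]
  ring

/-- JOB Q3a. Virtual Betti numbers exist, and they vanish below the low degree. (Recursion on `t`:
`b t i = edim t i - ∑_(u ≥ 1) ∑_j cart u i j * b (t - u) j`, using `cart_zero` from `Split.lean`:
`cart 0 i j = if i = j then 1 else 0`.) -/
theorem exists_betti (GQ : QAlg k A)
    (hcart : ∀ i j, cart GQ 0 i j = if i = j then 1 else 0)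
    {X : Type u} [AddCommGroup X] [Module A X] [Module k X] [IsScalarTower k A X]
    [Module.Finite A X] (G : Gr k X) (l : ℕ) (hl : G.LowGE l) :
    ∃ b : ℕ → Fin GQ.r → ℤ, IsBetti GQ G b ∧ ∀ t, t < l → b t = 0 :=
  ⟨bettiRec GQ G, bettiRec_isBetti GQ hcart G, fun t ht => funext (bettiRec_eq_zero GQ G l hl t ht)⟩

private lemma pair_sub (GQ : QAlg k A) {N : Type u} [AddCommGroup N] [Module A N] [Module k N]
    [IsScalarTower k A N] (H : Gr k N) (b b' : ℕ → Fin GQ.r → ℤ) (c : ℕ) :
    pair GQ H (b - b') c = pair GQ H b c - pair GQ H b' c := by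
  unfold pair
  rw [← Finset.sum_sub_distrib]
  refine Finset.sum_congr rfl fun t _ => ?_
  rw [← Finset.sum_sub_distrib]
  refine Finset.sum_congr rfl fun i _ => ?_
  simp only [Pi.sub_apply]
  ring

private lemma isBetti_sub (GQ : QAlg k A)
    {Y P X : Type u} [AddCommGroup Y] [Module A Y] [Module k Y] [IsScalarTower k A Y]
    [AddCommGroup P] [Module A P] [Module k P] [IsScalarTower k A P]
    [AddCommGroup X] [Module A X] [Module k X] [IsScalarTower k A X]
    (GY : Gr k Y) (GP : Gr k P) (GX : Gr k X) (h : ∀ t a, edim GQ GP t a = edim GQ GX t a + edim GQ GY t a)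
    (bP bY : ℕ → Fin GQ.r → ℤ) (hP : IsBetti GQ GP bP) (hY : IsBetti GQ GY bY) :
    IsBetti GQ GX (bP - bY) := by
  intro t i
  have e1 : (edim GQ GX t i : ℤ) = (edim GQ GP t i : ℤ) - (edim GQ GY t i : ℤ) := by
    rw [h t i]
    push_cast
    ring
  rw [e1, hP t i, hY t i, ← Finset.sum_sub_distrib]
  refine Finset.sum_congr rfl fun u _ => ?_
  rw [← Finset.sum_sub_distrib]
  refine Finset.sum_congr rfl fun j _ => ?_
  simp only [Pi.sub_apply]
  ring

private lemma hdim_pair_base (GQ : QAlg k A)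
    {X N : Type u} [AddCommGroup X] [Module A X] [Module k X] [IsScalarTower k A X]
    [AddCommGroup N] [Module A N] [Module k N] [IsScalarTower k A N]
    (G : Gr k X) (H : Gr k N) (l t c : ℕ) (hl : G.LowGE l)
    (ht : ∀ e, t < e → H.proj e = 0) (hr : c + t < l) (b : ℕ → Fin GQ.r → ℤ)
    (hb : ∀ t, t < l → b t = 0) :
    (hdim (A := A) G H c : ℤ) = pair GQ H b c := by
  have h1 : Hom (A := A) G H c = ⊥ := by
    rw [Submodule.eq_bot_iff]
    intro u hu
    ext x
    rw [← G.sum_proj x, map_sum, LinearMap.zero_apply]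
    refine Finset.sum_eq_zero fun e _ => ?_
    have hx : G.proj e x ∈ G.piece e := ⟨x, rfl⟩
    by_cases hel : e < l
    · rw [hl e hel]
      simp
    · have hce : c ≤ e := by omega
      have h3 := (hu e _ hx).1 hce
      have h4 := (Gr.mem_piece_iff H).1 h3
      rw [ht (e - c) (by omega)] at h4
      simpa using h4.symm
  have h2 : hdim (A := A) G H c = 0 := by
    rw [hdim, h1]
    exact finrank_bot k _
  rw [h2]
  unfold pair
  symm
  simp only [Nat.cast_zero]
  refine Finset.sum_eq_zero fun s _ => Finset.sum_eq_zero fun i _ => ?_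
  by_cases hs : t < s
  · rw [edim_eq_zero GQ H (ht s hs) i]
    simp
  · rw [hb (c + s) (by omega)]
    simp

/-- JOB Q3b. Descent: one sequence of virtual Betti numbers computes `hdim` against every `N` with
enough vanishing. Induction on `r`. For `r = 0`: `exists_betti`; both sides vanish for degree reasons
(`X` lives in degrees `≥ l`, `N` in degrees `≤ t`, `c + t < l`). Step: take `exists_cover`, apply the
induction hypothesis to `Y = ker μ` (low degree `l + 1`; `Ext^i(Y, N) = 0` for `1 ≤ i ≤ r` by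
`ext_shift_first`, `PS_projective`), take `b^P` from `betti_of_cover`, and put `b = b^P - b^Y`;
`edim_ses` gives `IsBetti`, and `hdim_ses` (extension property from `extend_of_ext_vanish`, `i = 1`)
gives the formula. -/
theorem hdim_eq_pair (GQ : QAlg k A)
    (hcart : ∀ i j, cart GQ 0 i j = if i = j then 1 else 0) :
    ∀ (r l : ℕ) {X : Type u} [AddCommGroup X] [Module A X] [Module k X] [IsScalarTower k A X]
      [Module.Finite A X] (G : Gr k X), IsModQ GQ G → G.LowGE l →
      ∃ b : ℕ → Fin GQ.r → ℤ, IsBetti GQ G b ∧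
      ∀ {N : Type u} [AddCommGroup N] [Module A N] [Module k N] [IsScalarTower k A N]
        [Module.Finite A N] (H : Gr k N), IsModQ GQ H →
      (∀ i, 1 ≤ i → i ≤ r → ∀ e : Ext (ModuleCat.of A X) (ModuleCat.of A N) i, e = 0) →
      ∀ t c : ℕ, (∀ e, t < e → H.proj e = 0) → c + t < l + r →
      (hdim (A := A) G H c : ℤ) = pair GQ H b c := by
  intro r
  induction r with
  | zero =>
    intro l X _ _ _ _ _ G hG hl
    obtain ⟨b, hb1, hb2⟩ := exists_betti GQ hcart G l hl
    refine ⟨b, hb1, ?_⟩
    intro N _ _ _ _ _ H hH _ t c ht hr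
    exact hdim_pair_base GQ G H l t c hl ht (by omega) b hb2
  | succ r ih =>
    intro l X _ _ _ _ _ G hG hl
    obtain ⟨m, j, g, GP, μ, GY, hGP, hGY, hμ, gp, gi, hlow, h1, h2⟩ := exists_cover GQ G hG l hl
    obtain ⟨hPP, hPF⟩ := PS_projective GQ j
    haveI := hPP
    haveI := hPF
    haveI : IsNoetherian A A := isNoetherian_of_tower k inferInstance
    haveI : Module.Finite A (LinearMap.ker μ) := Module.Finite.of_injective
      (LinearMap.ker μ).subtype (LinearMap.ker μ).injective_subtype
    obtain ⟨bY, hbY, hY⟩ := ih (l + 1) GY hGY hlow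
    obtain ⟨bP, hbP, hP⟩ := betti_of_cover GQ GP j g h1
    have hS : (μ.shortComplexKer).ShortExact := LinearMap.shortExact_shortComplexKer hμ
    haveI : Projective (μ.shortComplexKer).X₂ := by
      change Projective (ModuleCat.of A (PS GQ j))
      infer_instance
    have hedim : ∀ t a, edim GQ GP t a = edim GQ G t a + edim GQ GY t a := fun t a =>
      edim_ses GQ GY GP G hGP hG hGY (LinearMap.ker μ).subtype μ
        (LinearMap.ker μ).injective_subtype hμ (by simp) (fun e y => gi e y) gp t a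
    refine ⟨bP - bY, isBetti_sub GQ GY GP G hedim bP bY hbP hbY, ?_⟩
    intro N _ _ _ _ _ H hH hext t c ht hr
    have hext1 : ∀ v : LinearMap.ker μ →ₗ[A] N, ∃ w : (PS GQ j) →ₗ[A] N,
        w ∘ₗ (LinearMap.ker μ).subtype = v := by
      intro v
      obtain ⟨w, hw⟩ := Vale.Agent.Lib.P195.extend_of_ext_vanish hS (ModuleCat.of A N)
        (hext 1 le_rfl (by omega)) (ModuleCat.ofHom v)
      refine ⟨w.hom, ?_⟩
      exact congrArg ModuleCat.Hom.hom hw
    have hYN : (hdim (A := A) GY H c : ℤ) = pair GQ H bY c := by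
      refine hY H hH ?_ t c ht (by omega)
      intro i hi1 hir e
      obtain ⟨n, rfl⟩ : ∃ n, i = n + 1 := ⟨i - 1, by omega⟩
      exact Vale.Agent.Lib.P195.ext_shift_first hS (ModuleCat.of A N) n
        (hext (n + 2) (by omega) (by omega)) e
    have hPN : (hdim (A := A) GP H c : ℤ) = pair GQ H bP c := by
      rw [h2 N H hH c, hP N H c]
    have hadd := hdim_ses GQ GY GP G H hGP hG hGY hH (LinearMap.ker μ).subtype μ
      (LinearMap.ker μ).injective_subtype hμ (by simp) (fun e y => gi e y) gp hext1 c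
    rw [pair_sub, ← hPN, ← hYN, hadd]
    push_cast
    ring

end Vale.Agent.Lib.P195Q
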