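import Vale.Agent.Lib.P195Q.Basic

/-! Graded short exact sequences: dimension vectors and dimensions of graded Hom are additive. -/

set_option linter.style.haveILetI false
set_option linter.unusedVariables false

open CategoryTheory Abelian

namespace Vale.Agent.Lib.P195Q

open Vale.Agent.Lib.P195G

universe u v

variable {k : Type v} [Field k] {A : Type u} [Ring A] [Algebra k A] [FiniteDimensional k A]
variable {X Y P N : Type u}
  [AddCommGroup X] [Module A X] [Module k X] [IsScalarTower k A X] [Module.Finite A X]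
  [AddCommGroup Y] [Module A Y] [Module k Y] [IsScalarTower k A Y] [Module.Finite A Y]
  [AddCommGroup P] [Module A P] [Module k P] [IsScalarTower k A P] [Module.Finite A P]
  [AddCommGroup N] [Module A N] [Module k N] [IsScalarTower k A N] [Module.Finite A N]

section Aux

variable {Q R : Type u} [AddCommGroup Q] [Module A Q] [Module k Q] [IsScalarTower k A Q]
  [AddCommGroup R] [Module A R] [Module k R] [IsScalarTower k A R]

omit [FiniteDimensional k A] [IsScalarTower k A R] in
private lemma q_proj_of_mem (H : Gr k R) {e m : ℕ} {w : R} (hw : w ∈ H.piece e) (hm : m ≠ e) :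
    H.proj m w = 0 := by
  rw [← (Gr.mem_piece_iff H).1 hw]
  exact H.proj_ne m e w hm

omit [FiniteDimensional k A] [IsScalarTower k A R] in
/-- Homogeneous elements act with the right degree on the components. -/
private lemma q_proj_smul_split (GQ : QAlg k A) (H : Gr k R) (hH : IsModQ GQ H) {i : ℕ} {a : A}
    (ha : a ∈ GQ.gr.piece i) (z : R) (m : ℕ) :
    H.proj m (a • z) = ∑ l ∈ Finset.range (H.top + 1), H.proj m (a • H.proj l z) := by
  conv_lhs => rw [← H.sum_proj z, Finset.smul_sum, map_sum]

omit [FiniteDimensional k A] [IsScalarTower k A R] in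
private lemma q_proj_smul_of_mem (GQ : QAlg k A) (H : Gr k R) (hH : IsModQ GQ H) {i : ℕ} {a : A}
    (ha : a ∈ GQ.gr.piece i) (z : R) (j : ℕ) :
    H.proj (i + j) (a • z) = a • H.proj j z := by
  rw [q_proj_smul_split GQ H hH ha]
  have hmem : ∀ l, a • H.proj l z ∈ H.piece (i + l) := fun l => hH i l a _ ha ⟨z, rfl⟩
  refine (Finset.sum_eq_single j ?_ ?_).trans ?_
  · intro l _ hl
    exact q_proj_of_mem H (hmem l) (by omega)
  · intro hj
    have hj' : H.top < j := by
      rw [Finset.mem_range] at hj
      omega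
    rw [H.proj_zero j hj', LinearMap.zero_apply, smul_zero, map_zero]
  · exact (Gr.mem_piece_iff H).1 (hmem j)

omit [FiniteDimensional k A] [IsScalarTower k A R] in
private lemma q_proj_smul_of_lt (GQ : QAlg k A) (H : Gr k R) (hH : IsModQ GQ H) {i : ℕ} {a : A}
    (ha : a ∈ GQ.gr.piece i) (z : R) {m : ℕ} (hm : m < i) :
    H.proj m (a • z) = 0 := by
  rw [q_proj_smul_split GQ H hH ha]
  refine Finset.sum_eq_zero fun l _ => ?_
  exact q_proj_of_mem H (hH i l a _ ha ⟨z, rfl⟩) (by omega)

/-- The graded part of a homomorphism: an `A`-linear map `w` has a component of degree `c`, agreeing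
with the component of `w x` on homogeneous `x`. -/
private lemma q_exists_graded_extension (GQ : QAlg k A) (GP : Gr k Q) (H : Gr k R)
    (hGP : IsModQ GQ GP) (hH : IsModQ GQ H) (c : ℕ) (w : Q →ₗ[A] R) :
    ∃ w' : Q →ₗ[A] R, (∀ e z, z ∈ GP.piece e → w' z = if c ≤ e then H.proj (e - c) (w z) else 0) ∧
      w' ∈ Hom (A := A) GP H c := by
  let w0 : Q →ₗ[k] R := ∑ e ∈ Finset.range (GP.top + 1),
    if c ≤ e then (H.proj (e - c)) ∘ₗ (w.restrictScalars k) ∘ₗ (GP.proj e) else 0
  have hw0 : ∀ e z, z ∈ GP.piece e → w0 z = if c ≤ e then H.proj (e - c) (w z) else 0 := by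
    intro e z hz
    have hz' := (Gr.mem_piece_iff GP).1 hz
    have hterm : ∀ e', (if c ≤ e' then (H.proj (e' - c)) ∘ₗ (w.restrictScalars k) ∘ₗ (GP.proj e')
        else (0 : Q →ₗ[k] R)) z = if c ≤ e' then H.proj (e' - c) (w (GP.proj e' z)) else 0 := by
      intro e'
      split_ifs <;> rfl
    simp only [w0, LinearMap.sum_apply]
    by_cases he : e ∈ Finset.range (GP.top + 1)
    · rw [Finset.sum_eq_single e, hterm, hz']
      · intro e' _ hne
        rw [hterm, q_proj_of_mem GP hz hne]
        simp
      · exact fun h => absurd he h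
    · have htop : GP.top < e := by
        rw [Finset.mem_range] at he
        omega
      have hz0 : z = 0 := by
        rw [← hz', GP.proj_zero e htop, LinearMap.zero_apply]
      subst hz0
      simp
  -- homogeneous elements
  have hhom : ∀ i e (a : A) (z : Q), a ∈ GQ.gr.piece i → z ∈ GP.piece e → w0 (a • z) = a • w0 z := by
    intro i e a z ha hz
    have haz := hGP i e a z ha hz
    rw [hw0 _ _ haz, hw0 _ _ hz, map_smul]
    by_cases hce : c ≤ e
    · rw [if_pos hce, if_pos (by omega)]
      have e1 : i + e - c = i + (e - c) := by omega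
      rw [e1, q_proj_smul_of_mem GQ H hH ha]
    · rw [if_neg hce, smul_zero]
      by_cases hce2 : c ≤ i + e
      · rw [if_pos hce2]
        exact q_proj_smul_of_lt GQ H hH ha _ (by omega)
      · rw [if_neg hce2]
  have hsm1 : ∀ i (a : A) (z : Q), a ∈ GQ.gr.piece i → w0 (a • z) = a • w0 z := by
    intro i a z ha
    conv_lhs => rw [← GP.sum_proj z, Finset.smul_sum, map_sum]
    conv_rhs => rw [← GP.sum_proj z, map_sum, Finset.smul_sum]
    exact Finset.sum_congr rfl fun e _ => hhom i e a _ ha ⟨z, rfl⟩
  have hsm : ∀ (a : A) (z : Q), w0 (a • z) = a • w0 z := by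
    intro a z
    conv_lhs => rw [← GQ.gr.sum_proj a, Finset.sum_smul, map_sum]
    conv_rhs => rw [← GQ.gr.sum_proj a, Finset.sum_smul]
    exact Finset.sum_congr rfl fun i _ => hsm1 i _ z ⟨a, rfl⟩
  let w' : Q →ₗ[A] R :=
    { toFun := w0
      map_add' := map_add w0
      map_smul' := hsm }
  refine ⟨w', hw0, ?_⟩
  intro e z hz
  have h1 : w' z = if c ≤ e then H.proj (e - c) (w z) else 0 := hw0 e z hz
  constructor
  · intro hce
    rw [h1, if_pos hce]
    exact ⟨w z, rfl⟩
  · intro hce
    rw [h1, if_neg (not_le.2 hce)]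

end Aux

/-- JOB Q1a. The dimension vectors are additive along a graded short exact sequence.
(`x ↦ e_i • G.proj t x` is a projection onto `ePiece`; compare `pdim_ses` in `P195G/Exact`.) -/
theorem edim_ses (GQ : QAlg k A) (GY : Gr k Y) (GP : Gr k P) (GX : Gr k X)
    (hGP : IsModQ GQ GP) (hGX : IsModQ GQ GX) (hGY : IsModQ GQ GY)
    (i : Y →ₗ[A] P) (p : P →ₗ[A] X) (hi : Function.Injective i) (hp : Function.Surjective p)
    (hex : LinearMap.range i = LinearMap.ker p)
    (gi : ∀ e y, GP.proj e (i y) = i (GY.proj e y))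
    (gp : ∀ e x, GX.proj e (p x) = p (GP.proj e x)) (t : ℕ) (a : Fin GQ.r) :
    edim GQ GP t a = edim GQ GX t a + edim GQ GY t a := by
  haveI : Module.Finite k P := Module.Finite.trans A P
  haveI : Module.Finite k X := Module.Finite.trans A X
  haveI : Module.Finite k Y := Module.Finite.trans A Y
  unfold edim
  have hzero : ∀ {Q : Type u} [AddCommGroup Q] [Module A Q] [Module k Q] [IsScalarTower k A Q]
      (G : Gr k Q),
      IsModQ GQ G → ∀ z, GQ.e a • G.proj t z ∈ ePiece GQ G t a := by
    intro Q _ _ _ _ G hG z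
    refine ⟨?_, ?_⟩
    · have := hG 0 t (GQ.e a) (G.proj t z) (GQ.e_mem a) ⟨z, rfl⟩
      rwa [Nat.zero_add] at this
    · rw [← mul_smul, GQ.e_mul_self]
  have hpm : ∀ z ∈ ePiece GQ GP t a, (p.restrictScalars k) z ∈ ePiece GQ GX t a := by
    rintro z ⟨hz, hez⟩
    have hz' := (Gr.mem_piece_iff GP).1 hz
    refine ⟨(Gr.mem_piece_iff GX).2 ?_, ?_⟩
    · show GX.proj t (p z) = p z
      rw [gp, hz']
    · show GQ.e a • p z = p z
      rw [← map_smul, hez]
  have him : ∀ z ∈ ePiece GQ GY t a, (i.restrictScalars k) z ∈ ePiece GQ GP t a := by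
    rintro z ⟨hz, hez⟩
    have hz' := (Gr.mem_piece_iff GY).1 hz
    refine ⟨(Gr.mem_piece_iff GP).2 ?_, ?_⟩
    · show GP.proj t (i z) = i z
      rw [gi, hz']
    · show GQ.e a • i z = i z
      rw [← map_smul, hez]
  set f : ePiece GQ GP t a →ₗ[k] ePiece GQ GX t a := (p.restrictScalars k).restrict hpm with hf0
  set g : ePiece GQ GY t a →ₗ[k] ePiece GQ GP t a := (i.restrictScalars k).restrict him with hg0
  have hf : Function.Surjective f := by
    rintro ⟨x, hx, hex'⟩
    obtain ⟨z, rfl⟩ := hp x
    have hx' := (Gr.mem_piece_iff GX).1 hx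
    refine ⟨⟨GQ.e a • GP.proj t z, hzero GP hGP z⟩, ?_⟩
    apply Subtype.ext
    show p (GQ.e a • GP.proj t z) = p z
    rw [map_smul, ← gp, hx', hex']
  have hg : Function.Injective g := by
    intro b c hbc
    apply Subtype.ext
    apply hi
    exact congrArg Subtype.val hbc
  have hgf : LinearMap.range g = LinearMap.ker f := by
    ext ⟨z, hz, hez⟩
    constructor
    · rintro ⟨⟨y, hy⟩, hyz⟩
      have h1 : i y = z := congrArg Subtype.val hyz
      rw [LinearMap.mem_ker]
      apply Subtype.ext
      show p z = 0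
      rw [← h1]
      have h2 : i y ∈ LinearMap.ker p := by
        rw [← hex]
        exact ⟨y, rfl⟩
      exact h2
    · intro h
      have h1 : p z = 0 := congrArg Subtype.val (LinearMap.mem_ker.1 h)
      have h2 : z ∈ LinearMap.range i := by
        rw [hex]
        exact h1
      obtain ⟨y, rfl⟩ := h2
      refine ⟨⟨GQ.e a • GY.proj t y, hzero GY hGY y⟩, ?_⟩
      apply Subtype.ext
      show i (GQ.e a • GY.proj t y) = i y
      rw [map_smul, ← gi, (Gr.mem_piece_iff GP).1 hz, hez]
  have h1 := LinearMap.finrank_range_add_finrank_ker f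
  rw [LinearMap.range_eq_top.2 hf, finrank_top, ← hgf, LinearMap.finrank_range_of_inj hg] at h1
  omega

/-- JOB Q1b. Same statement and proof as `hdim_ses` in `P195G/Exact`, for `QAlg`: if every `A`-linear
map `Y → N` extends along `i`, then the dimensions of `Hom_c` are additive. -/
theorem hdim_ses (GQ : QAlg k A) (GY : Gr k Y) (GP : Gr k P) (GX : Gr k X) (H : Gr k N)
    (hGP : IsModQ GQ GP) (hGX : IsModQ GQ GX) (hGY : IsModQ GQ GY) (hH : IsModQ GQ H)
    (i : Y →ₗ[A] P) (p : P →ₗ[A] X) (hi : Function.Injective i) (hp : Function.Surjective p)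
    (hex : LinearMap.range i = LinearMap.ker p)
    (gi : ∀ e y, GP.proj e (i y) = i (GY.proj e y))
    (gp : ∀ e x, GX.proj e (p x) = p (GP.proj e x))
    (hext : ∀ v : Y →ₗ[A] N, ∃ w : P →ₗ[A] N, w ∘ₗ i = v) (c : ℕ) :
    hdim (A := A) GP H c = hdim (A := A) GX H c + hdim (A := A) GY H c := by
  haveI : Module.Finite k P := Module.Finite.trans A P
  haveI : Module.Finite k N := Module.Finite.trans A N
  have hm_i : ∀ e y, y ∈ GY.piece e → i y ∈ GP.piece e := by
    intro e y hy
    have hy' := (Gr.mem_piece_iff GY).1 hy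
    refine (Gr.mem_piece_iff GP).2 ?_
    rw [gi, hy']
  have hm_p : ∀ e z, z ∈ GP.piece e → p z ∈ GX.piece e := by
    intro e z hz
    have hz' := (Gr.mem_piece_iff GP).1 hz
    refine (Gr.mem_piece_iff GX).2 ?_
    rw [gp, hz']
  have hker : ∀ y, p (i y) = 0 := by
    intro y
    have h2 : i y ∈ LinearMap.ker p := by
      rw [← hex]
      exact ⟨y, rfl⟩
    exact h2
  -- the two maps between the spaces of graded homomorphisms
  let α : Hom (A := A) GX H c →ₗ[k] Hom (A := A) GP H c :=
    { toFun := fun u => ⟨u.1.comp p, fun e x hx => u.2 e (p x) (hm_p e x hx)⟩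
      map_add' := fun u v => by
        apply Subtype.ext
        ext z
        rfl
      map_smul' := fun r u => by
        apply Subtype.ext
        ext z
        rfl }
  let β : Hom (A := A) GP H c →ₗ[k] Hom (A := A) GY H c :=
    { toFun := fun u => ⟨u.1.comp i, fun e x hx => u.2 e (i x) (hm_i e x hx)⟩
      map_add' := fun u v => by
        apply Subtype.ext
        ext z
        rfl
      map_smul' := fun r u => by
        apply Subtype.ext
        ext z
        rfl }
  have hαinj : Function.Injective α := by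
    intro u v huv
    apply Subtype.ext
    ext x
    obtain ⟨z, rfl⟩ := hp x
    exact LinearMap.congr_fun (congrArg Subtype.val huv) z
  have hβsurj : Function.Surjective β := by
    intro v
    obtain ⟨w, hw⟩ := hext v.1
    obtain ⟨w', hw'1, hw'2⟩ := q_exists_graded_extension GQ GP H hGP hH c w
    refine ⟨⟨w', hw'2⟩, ?_⟩
    apply Subtype.ext
    ext y
    show w' (i y) = v.1 y
    rw [← GY.sum_proj y, map_sum, map_sum, map_sum]
    refine Finset.sum_congr rfl fun e _ => ?_
    have hy : GY.proj e y ∈ GY.piece e := ⟨y, rfl⟩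
    rw [hw'1 e _ (hm_i e _ hy)]
    have hvy := v.2 e _ hy
    have hwv : w (i (GY.proj e y)) = v.1 (GY.proj e y) :=
      LinearMap.congr_fun hw (GY.proj e y)
    by_cases hce : c ≤ e
    · rw [if_pos hce, hwv]
      exact (Gr.mem_piece_iff H).1 (hvy.1 hce)
    · rw [if_neg hce]
      exact (hvy.2 (not_le.1 hce)).symm
  have hexact : LinearMap.range α = LinearMap.ker β := by
    ext w
    constructor
    · rintro ⟨u, rfl⟩
      rw [LinearMap.mem_ker]
      apply Subtype.ext
      ext y
      show u.1 (p (i y)) = 0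
      rw [hker, map_zero]
    · intro hw
      have hw0 : ∀ y, w.1 (i y) = 0 := fun y =>
        LinearMap.congr_fun (congrArg Subtype.val (LinearMap.mem_ker.1 hw)) y
      have hkey : ∀ z z' : P, p z = p z' → w.1 z = w.1 z' := by
        intro z z' hzz
        have h1 : z - z' ∈ LinearMap.ker p := by
          rw [LinearMap.mem_ker, map_sub, hzz, sub_self]
        rw [← hex] at h1
        obtain ⟨y, hy⟩ := h1
        have h2 := hw0 y
        rw [hy, map_sub, sub_eq_zero] at h2
        exact h2
      let s := Function.surjInv hp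
      have hs : ∀ x, p (s x) = x := Function.surjInv_eq hp
      let u : X →ₗ[A] N :=
        { toFun := fun x => w.1 (s x)
          map_add' := fun x x' => by
            rw [← map_add]
            exact hkey _ _ (by rw [map_add, hs, hs, hs])
          map_smul' := fun a x => by
            show w.1 (s (a • x)) = a • w.1 (s x)
            rw [← map_smul]
            exact hkey _ _ (by rw [map_smul, hs, hs]) }
      have hu : ∀ z, u (p z) = w.1 z := fun z => hkey _ _ (hs _)
      refine ⟨⟨u, ?_⟩, ?_⟩
      · intro e x hx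
        have hx' := (Gr.mem_piece_iff GX).1 hx
        have hpz : p (GP.proj e (s x)) = x := by
          rw [← gp, hs, hx']
        have hzm : GP.proj e (s x) ∈ GP.piece e := ⟨s x, rfl⟩
        have h2 := w.2 e _ hzm
        have h3 : u x = w.1 (GP.proj e (s x)) := by
          rw [← hu, hpz]
        rw [h3]
        exact h2
      · apply Subtype.ext
        ext z
        exact hu z
  haveI hfin : Module.Finite k (P →ₗ[A] N) := by
    let T : (P →ₗ[A] N) →ₗ[k] (P →ₗ[k] N) :=
      { toFun := fun f => f.restrictScalars k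
        map_add' := fun _ _ => rfl
        map_smul' := fun _ _ => rfl }
    refine Module.Finite.of_injective T ?_
    intro f g hfg
    ext x
    exact LinearMap.congr_fun hfg x
  have h1 := LinearMap.finrank_range_add_finrank_ker β
  rw [LinearMap.range_eq_top.2 hβsurj, finrank_top, ← hexact, LinearMap.finrank_range_of_inj hαinj] at h1
  unfold hdim
  omega

end Vale.Agent.Lib.P195Q
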