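import Vale.Agent.Lib.P195Q.Split

/-! The gap theorem: a graded short exact sequence `0 → Y → P → M → 0`, `P` projective, `Y` in high degrees. -/

set_option linter.style.haveILetI false
set_option linter.unusedVariables false

open CategoryTheory Abelian

namespace Vale.Agent.Lib.P195Q

open Vale.Agent.Lib.P195G

universe u v

variable {k : Type v} [Field k] {A : Type u} [Ring A] [Algebra k A] [FiniteDimensional k A]
variable {M P Y : Type u}
  [AddCommGroup M] [Module A M] [Module k M] [IsScalarTower k A M] [Module.Finite A M]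
  [AddCommGroup P] [Module A P] [Module k P] [IsScalarTower k A P] [Module.Finite A P]
  [AddCommGroup Y] [Module A Y] [Module k Y] [IsScalarTower k A Y] [Module.Finite A Y]

/-- The vanishing range of the gap theorem. -/
def QAlg.gapRange (GQ : QAlg k A) (T : ℕ) : ℕ := 2 * T + (GQ.r + 1) * GQ.gr.top + 1


omit [FiniteDimensional k A] in
private lemma gap_LI_proj_fin (GQ : QAlg k A) (j : Fin GQ.r) :
    Module.Projective A (LI GQ j) ∧ Module.Finite A (LI GQ j) := by
  let π : A →ₗ[A] (LI GQ j) :=
    { toFun := fun a => ⟨a * GQ.e j, by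
        show a * GQ.e j * GQ.e j = a * GQ.e j
        rw [mul_assoc, GQ.e_mul_self]⟩
      map_add' := fun a b => by
        ext
        simp [add_mul]
      map_smul' := fun c a => by
        ext
        simp [mul_assoc] }
  have hπ : ∀ x : LI GQ j, π x = x := by
    intro x
    ext
    exact x.2
  have hFin : Module.Finite A (LI GQ j) := Module.Finite.of_surjective π fun x => ⟨x, hπ x⟩
  have hProj : Module.Projective A (LI GQ j) :=
    Module.Projective.of_split (LI GQ j).subtype π (LinearMap.ext fun x => hπ x)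
  exact ⟨hProj, hFin⟩

omit [FiniteDimensional k A] in
private lemma gap_edim_zero (GQ : QAlg k A) {X : Type u} [AddCommGroup X] [Module A X]
    [Module k X] [IsScalarTower k A X] (G : Gr k X) {t : ℕ} (h : G.proj t = 0) (i : Fin GQ.r) :
    edim GQ G t i = 0 := by
  have hb : ePiece GQ G t i = ⊥ := by
    rw [Submodule.eq_bot_iff]
    rintro x ⟨hx, -⟩
    have hx' := (Gr.mem_piece_iff G).1 hx
    rw [h] at hx'
    simpa using hx'.symm
  rw [edim, hb]
  exact finrank_bot k X

omit [FiniteDimensional k A] in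
private lemma gap_sum_range_extend (GQ : QAlg k A) {N : Type u} [AddCommGroup N] [Module A N]
    [Module k N] [IsScalarTower k A N] (H : Gr k N) (U V : ℕ) (hUV : U ≤ V)
    (hU : ∀ e, U < e → H.proj e = 0) (b : ℕ → Fin GQ.r → ℤ) (c : ℕ) :
    ∑ t ∈ Finset.range (U + 1), ∑ i, (edim GQ H t i : ℤ) * b (c + t) i
      = ∑ t ∈ Finset.range (V + 1), ∑ i, (edim GQ H t i : ℤ) * b (c + t) i := by
  refine Finset.sum_subset ?_ ?_
  · intro e he
    simp only [Finset.mem_range] at he ⊢
    omega
  · intro e _ he
    have hlt : U < e := by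
      simp only [Finset.mem_range] at he
      omega
    refine Finset.sum_eq_zero fun i _ => ?_
    rw [gap_edim_zero GQ H (hU e hlt) i]
    simp

omit [FiniteDimensional k A] in
/-- The pairing can be computed over any range of degrees containing the support. -/
private lemma gap_pair_eq_of_bound (GQ : QAlg k A) {N : Type u} [AddCommGroup N] [Module A N]
    [Module k N] [IsScalarTower k A N] (H : Gr k N) (T : ℕ) (hT : ∀ e, T < e → H.proj e = 0)
    (b : ℕ → Fin GQ.r → ℤ) (c : ℕ) :
    pair GQ H b c = ∑ t ∈ Finset.range (T + 1), ∑ i, (edim GQ H t i : ℤ) * b (c + t) i := by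
  unfold pair
  rw [gap_sum_range_extend GQ H H.top (max T H.top) (le_max_right _ _) H.proj_zero b c,
    gap_sum_range_extend GQ H T (max T H.top) (le_max_left _ _) hT b c]

/-- The space of `A`-linear maps is finite-dimensional over `k`. -/
private lemma gap_finite_linearMap {M N : Type u} [AddCommGroup M] [Module A M] [Module k M]
    [IsScalarTower k A M] [Module.Finite A M] [AddCommGroup N] [Module A N] [Module k N]
    [IsScalarTower k A N] [Module.Finite A N] : Module.Finite k (M →ₗ[A] N) := by
  haveI : Module.Finite k M := Module.Finite.trans A M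
  haveI : Module.Finite k N := Module.Finite.trans A N
  let f : (M →ₗ[A] N) →ₗ[k] (M →ₗ[k] N) :=
    { toFun := fun u => u.restrictScalars k
      map_add' := fun _ _ => rfl
      map_smul' := fun _ _ => rfl }
  refine Module.Finite.of_injective f ?_
  intro u v huv
  ext y
  exact LinearMap.congr_fun huv y

omit [FiniteDimensional k A] [IsScalarTower k A M] [Module.Finite A M] in
/-- A map lowering degrees by more than the top degree of the source vanishes. -/
private lemma gap_hom_bot_of_top {M N : Type u} [AddCommGroup M] [Module A M] [Module k M]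
    [IsScalarTower k A M] [AddCommGroup N] [Module A N] [Module k N] [IsScalarTower k A N]
    (G : Gr k M) (H : Gr k N) (T c : ℕ)
    (hT : ∀ e, T < e → G.proj e = 0) (hc : T < c) : Hom (A := A) G H c = ⊥ := by
  rw [Submodule.eq_bot_iff]
  intro u hu
  ext x
  rw [← G.sum_proj x, map_sum, LinearMap.zero_apply]
  refine Finset.sum_eq_zero fun e _ => ?_
  have hx : G.proj e x ∈ G.piece e := ⟨x, rfl⟩
  by_cases he : e < c
  · exact (hu e _ hx).2 he
  · rw [hT e (by omega)]
    simp

omit [FiniteDimensional k A] [IsScalarTower k A M] [Module.Finite A M] in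
private lemma gap_hdim_eq_zero_of_top {M N : Type u} [AddCommGroup M] [Module A M] [Module k M]
    [IsScalarTower k A M] [AddCommGroup N] [Module A N] [Module k N] [IsScalarTower k A N]
    (G : Gr k M) (H : Gr k N) (T c : ℕ)
    (hT : ∀ e, T < e → G.proj e = 0) (hc : T < c) : hdim (A := A) G H c = 0 := by
  unfold hdim
  rw [gap_hom_bot_of_top G H T c hT hc]
  exact finrank_bot k _

/-- JOB R1. The gap theorem. Put `s = GQ.gr.top`, `r = GQ.r`, `R = GQ.gapRange T`. Paper proof:
(0) `Y` and `M` also live in degrees `≤ T` (injectivity of `i`, surjectivity of `p`, compatibility with projections).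
(1) Take `b` from `hdim_eq_pair` with `X = M`, `l = 0`, `r = R`. It applies to `N = M`, `N = P` and `N = A e_j` (with the grading of
`exists_LI_grading`): the `Ext` vanishing for `P`, `A e_j` comes from `ext_proj_vanish` (`LI_proj_fin`, made public if needed). Let
`V c = b c`.
(2) `edim_ses` gives `edim P = edim M + edim Y`, hence for `c + T < R`: `hdim(M, P, c) = hdim(M, M, c) + F c`, where
`F c = ∑_(t ≤ T) ∑_a edim Y t a * b (c + t) a`. For `c > T` both `hdim(M, P, c)` and `hdim(M, M, c)` vanish (the source lives in degrees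
`≤ T < c`), so `F c = 0` for `T < c`, `c + T < R`.
(3) For `d ≥ L + 1` the hypothesis `hu` gives `hdim(M, A e_j, d) = 0` (compose with the inclusion `A e_j → A`), so with the matrices
`L t` with entries `L t j a = cart t a j` (`L 0 = 1` by `cart_zero`), `∑_(t ≤ s) L t *ᵥ V (d + t) = 0` for `d ≥ L + 1`, `d + s < R`. Apply
`scalar_recurrence` to `V' c = V (c + L)`: there are integers `D` with `D 0 = 1` and `∑_(x ≤ r s) D x • V (d + x) = 0` for all `d ≥ L + 1` with
`d + r s + s < R`.
(4) Since `Y` lives in degrees `≥ L + 1` (hypothesis `hY`), for `c ≤ T`: `∑_(x ≤ r s) D x * F (c + x) = ∑_t ∑_a edim Y t a * (∑_x D x * b (c + t + x) a) = 0`,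
where only `t ≥ L + 1`, `t ≤ T` occur and `c + t + r s + s < R`. So `F c = - ∑_(1 ≤ x ≤ r s) D x * F (c + x)`, and descending induction from (2) gives
`F c = 0` for all `c ≤ T`. In particular `F 0 = 0`: `hdim(M, P, 0) = hdim(M, M, 0)`.
(5) The map `Hom_0(M, P) → Hom_0(M, M)`, `θ ↦ p ∘ₗ θ`, is well defined and injective: if `p ∘ₗ θ = 0`, then `θ` factors through `i` by a
map in `Hom_0(M, Y) = ⊥` (hypothesis `hθ`; use injectivity of `i` and `gi`). Equal finite dimensions make it surjective, so `id_M = p ∘ₗ θ`: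
`M` is a retract of the projective module `P`, hence projective (`Module.Projective.of_split`). -/
theorem projective_of_gap (GQ : QAlg k A) (GM : Gr k M) (GP : Gr k P) (GY : Gr k Y)
    (hGM : IsModQ GQ GM) (hGP : IsModQ GQ GP) (hGY : IsModQ GQ GY) (hPp : Module.Projective A P)
    (i : Y →ₗ[A] P) (p : P →ₗ[A] M) (hi : Function.Injective i) (hp : Function.Surjective p)
    (hex : LinearMap.range i = LinearMap.ker p)
    (gi : ∀ e y, GP.proj e (i y) = i (GY.proj e y))
    (gp : ∀ e x, GM.proj e (p x) = p (GP.proj e x))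
    (L T : ℕ) (hY : GY.LowGE (L + 1)) (hT : ∀ e, T < e → GP.proj e = 0)
    (hu : ∀ d, L + 1 ≤ d → Hom (A := A) GM GQ.gr d = ⊥)
    (hθ : Hom (A := A) GM GY 0 = ⊥)
    (hMM : ∀ i, 1 ≤ i → i ≤ GQ.gapRange T → ∀ e : Ext (ModuleCat.of A M) (ModuleCat.of A M) i, e = 0)
    (hMA : ∀ i, 1 ≤ i → i ≤ GQ.gapRange T → ∀ e : Ext (ModuleCat.of A M) (ModuleCat.of A A) i, e = 0) :
    Module.Projective A M := by
  classical
  set s := GQ.gr.top with hs
  set R := GQ.gapRange T with hR
  have hRs : R = 2 * T + GQ.r * s + s + 1 := by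
    rw [hR, QAlg.gapRange]
    ring
  have hl0 : GM.LowGE 0 := fun e he => absurd he (Nat.not_lt_zero e)
  obtain ⟨b, hb, hpair⟩ := hdim_eq_pair GQ (cart_zero GQ) R 0 GM hGM hl0
  -- degrees
  have hTM : ∀ e, T < e → GM.proj e = 0 := by
    intro e he
    ext x
    obtain ⟨z, rfl⟩ := hp x
    rw [gp, hT e he]
    simp
  have hTY : ∀ e, T < e → GY.proj e = 0 := by
    intro e he
    ext y
    apply hi
    rw [← gi, hT e he]
    simp
  -- `Ext` vanishing
  have hMP : ∀ q, 1 ≤ q → q ≤ R → ∀ e : Ext (ModuleCat.of A M) (ModuleCat.of A P) q, e = 0 := by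
    intro q hq1 hq2 e
    haveI : Module.Projective A (ModuleCat.of A P) := hPp
    haveI : Module.Finite A (ModuleCat.of A P) := inferInstanceAs (Module.Finite A P)
    exact Vale.Agent.Lib.P195.ext_proj_vanish (ModuleCat.of A P) (hMA q hq1 hq2) e
  have hMI : ∀ j, ∀ q, 1 ≤ q → q ≤ R →
      ∀ e : Ext (ModuleCat.of A M) (ModuleCat.of A (LI GQ j)) q, e = 0 := by
    intro j q hq1 hq2 e
    obtain ⟨hPj, hFj⟩ := gap_LI_proj_fin GQ j
    haveI : Module.Projective A (ModuleCat.of A (LI GQ j)) := hPj
    haveI : Module.Finite A (ModuleCat.of A (LI GQ j)) := hFj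
    exact Vale.Agent.Lib.P195.ext_proj_vanish (ModuleCat.of A (LI GQ j)) (hMA q hq1 hq2) e
  -- formulas for `hdim`
  have hformP : ∀ c, c + T < R → (hdim (A := A) GM GP c : ℤ) =
      ∑ t ∈ Finset.range (T + 1), ∑ a, (edim GQ GP t a : ℤ) * b (c + t) a := by
    intro c hc
    rw [hpair GP hGP hMP T c hT (by omega), gap_pair_eq_of_bound GQ GP T hT b c]
  have hformM : ∀ c, c + T < R → (hdim (A := A) GM GM c : ℤ) =
      ∑ t ∈ Finset.range (T + 1), ∑ a, (edim GQ GM t a : ℤ) * b (c + t) a := by
    intro c hc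
    rw [hpair GM hGM hMM T c hTM (by omega), gap_pair_eq_of_bound GQ GM T hTM b c]
  let F : ℕ → ℤ := fun c =>
    ∑ t ∈ Finset.range (T + 1), ∑ a, (edim GQ GY t a : ℤ) * b (c + t) a
  have hFeq : ∀ c, c + T < R →
      (hdim (A := A) GM GP c : ℤ) = (hdim (A := A) GM GM c : ℤ) + F c := by
    intro c hc
    rw [hformP c hc, hformM c hc]
    simp only [F]
    rw [← Finset.sum_add_distrib]
    refine Finset.sum_congr rfl fun t _ => ?_
    rw [← Finset.sum_add_distrib]
    refine Finset.sum_congr rfl fun a _ => ?_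
    rw [edim_ses GQ GY GP GM hGP hGM hGY i p hi hp hex gi gp t a]
    push_cast
    ring
  have hFhigh : ∀ c, T < c → c + T < R → F c = 0 := by
    intro c h1 h2
    have h3 := hFeq c h2
    rw [gap_hdim_eq_zero_of_top (A := A) GM GP T c hTM h1,
      gap_hdim_eq_zero_of_top (A := A) GM GM T c hTM h1] at h3
    simpa using h3.symm
  -- the recurrence from the left ideals
  choose GI hGI hGIt hGIc hGId using exists_LI_grading GQ
  haveI : ∀ j, Module.Finite A (LI GQ j) := fun j => (gap_LI_proj_fin GQ j).2
  have hformI : ∀ j c, c + s < R → (hdim (A := A) GM (GI j) c : ℤ) =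
      ∑ t ∈ Finset.range (s + 1), ∑ a, (cart GQ t a j : ℤ) * b (c + t) a := by
    intro j c hc
    rw [hpair (GI j) (hGI j) (hMI j) s c (hGIt j) (by omega),
      gap_pair_eq_of_bound GQ (GI j) s (hGIt j) b c]
    simp only [hGId]
  have hIzero : ∀ j d, L + 1 ≤ d → hdim (A := A) GM (GI j) d = 0 := by
    intro j d hd
    have hbot : Hom (A := A) GM (GI j) d = ⊥ := by
      rw [Submodule.eq_bot_iff]
      intro w hw
      have hmem : (LI GQ j).subtype ∘ₗ w ∈ Hom (A := A) GM GQ.gr d := by
        intro e x hx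
        refine ⟨fun h => ?_, fun h => ?_⟩
        · have h1 := (Gr.mem_piece_iff _).1 ((hw e x hx).1 h)
          refine (Gr.mem_piece_iff _).2 ?_
          show GQ.gr.proj (e - d) ((w x : LI GQ j) : A) = ((w x : LI GQ j) : A)
          rw [← hGIc j (e - d) (w x), h1]
        · show ((w x : LI GQ j) : A) = 0
          rw [(hw e x hx).2 h]
          rfl
      have h0 : (LI GQ j).subtype ∘ₗ w = 0 := by
        have hm := hmem
        rw [hu d hd] at hm
        exact (Submodule.mem_bot k).1 hm
      apply LinearMap.ext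
      intro x
      apply Subtype.ext
      show ((w x : LI GQ j) : A) = 0
      exact LinearMap.congr_fun h0 x
    unfold hdim
    rw [hbot]
    exact finrank_bot k _
  let Lm : ℕ → Matrix (Fin GQ.r) (Fin GQ.r) ℤ := fun t =>
    Matrix.of fun j a => (cart GQ t a j : ℤ)
  have hL0 : Lm 0 = 1 := by
    ext a c
    simp only [Lm, Matrix.of_apply, Matrix.one_apply, cart_zero]
    by_cases h : a = c
    · simp [h]
    · have h' : ¬ c = a := fun e => h e.symm
      simp [h, h']
  obtain ⟨D, hD0, hD⟩ := scalar_recurrence (s := s) Lm hL0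
  let K := R - 1 - s - L
  have hrec : ∀ c, 1 ≤ c → c ≤ K →
      ∑ t ∈ Finset.range (s + 1), (Lm t).mulVec (b (c + t + L)) = 0 := by
    intro c hc1 hc2
    funext j
    have hK : c + L + s < R := by
      simp only [K] at hc2
      omega
    have h1 := hformI j (c + L) hK
    have h2 : (hdim (A := A) GM (GI j) (c + L) : ℤ) = 0 := by
      exact_mod_cast hIzero j (c + L) (by omega)
    rw [h2] at h1
    rw [Finset.sum_apply, Pi.zero_apply, h1]
    refine Finset.sum_congr rfl fun t _ => ?_
    have e1 : c + t + L = c + L + t := by omega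
    rw [e1]
    simp [Lm, Matrix.mulVec, dotProduct]
  have hscal := hD (fun c => b (c + L)) K hrec
  -- the recurrence applied to `F`
  have hsum : ∀ c, c ≤ T → ∑ x ∈ Finset.range (GQ.r * s + 1), D x * F (c + x) = 0 := by
    intro c hc
    simp only [F, Finset.mul_sum]
    rw [Finset.sum_comm]
    refine Finset.sum_eq_zero fun t ht => ?_
    have ht' : t ≤ T := Nat.lt_succ_iff.mp (Finset.mem_range.mp ht)
    rw [Finset.sum_comm]
    refine Finset.sum_eq_zero fun a _ => ?_
    by_cases htL : t ≤ L
    · refine Finset.sum_eq_zero fun x _ => ?_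
      rw [gap_edim_zero GQ GY (hY t (by omega)) a]
      simp
    · have h3 := congrFun (hscal (c + t - L) (by omega) (by
        simp only [K]
        omega)) a
      simp only [Finset.sum_apply, Pi.smul_apply, Pi.zero_apply, smul_eq_mul] at h3
      have h4 : ∑ x ∈ Finset.range (GQ.r * s + 1), D x * ((edim GQ GY t a : ℤ) * b (c + x + t) a)
          = (edim GQ GY t a : ℤ) *
            ∑ x ∈ Finset.range (GQ.r * s + 1), D x * b (c + t - L + x + L) a := by
        rw [Finset.mul_sum]
        refine Finset.sum_congr rfl fun x _ => ?_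
        have e2 : c + x + t = c + t - L + x + L := by omega
        rw [e2]
        ring
      rw [h4, h3, mul_zero]
  -- descending induction
  have hFall : ∀ n c, c ≤ T → T - c = n → F c = 0 := by
    intro n
    induction n using Nat.strong_induction_on with
    | _ n ih =>
      intro c hc hn
      have h := hsum c hc
      rw [Finset.sum_eq_single 0] at h
      · rw [hD0, one_mul, Nat.add_zero] at h
        exact h
      · intro x hx hx0
        have hx' : x ≤ GQ.r * s := Nat.lt_succ_iff.mp (Finset.mem_range.mp hx)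
        by_cases hcx : c + x ≤ T
        · rw [ih (T - (c + x)) (by omega) (c + x) hcx rfl, mul_zero]
        · rw [hFhigh (c + x) (by omega) (by omega), mul_zero]
      · intro h0
        exact absurd (Finset.mem_range.mpr (Nat.succ_pos _)) h0
  have hdimEq : hdim (A := A) GM GP 0 = hdim (A := A) GM GM 0 := by
    have h := hFeq 0 (by omega)
    rw [hFall (T - 0) 0 (Nat.zero_le _) rfl, add_zero] at h
    exact_mod_cast h
  -- the retraction
  haveI : Module.Finite k (M →ₗ[A] P) := gap_finite_linearMap
  haveI : Module.Finite k (M →ₗ[A] M) := gap_finite_linearMap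
  have hcomp : ∀ θ : M →ₗ[A] P, θ ∈ Hom (A := A) GM GP 0 → p ∘ₗ θ ∈ Hom (A := A) GM GM 0 := by
    intro θ hθ' e x hx
    refine ⟨fun _ => ?_, fun h => absurd h (Nat.not_lt_zero e)⟩
    have h1 := (Gr.mem_piece_iff _).1 ((hθ' e x hx).1 (Nat.zero_le e))
    rw [Nat.sub_zero] at h1 ⊢
    refine (Gr.mem_piece_iff _).2 ?_
    show GM.proj e (p (θ x)) = p (θ x)
    rw [gp, h1]
  let Φ : Hom (A := A) GM GP 0 →ₗ[k] Hom (A := A) GM GM 0 :=
    { toFun := fun θ => ⟨p ∘ₗ θ.1, hcomp θ.1 θ.2⟩
      map_add' := fun a c => Subtype.ext (LinearMap.comp_add _ _ _)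
      map_smul' := fun c a => by
        apply Subtype.ext
        ext x
        show p (c • (a.1 x)) = c • p (a.1 x)
        have hsm : ∀ z : P, c • z = (algebraMap k A c) • z := fun z => (algebraMap_smul A c z).symm
        have hsm' : ∀ z : M, c • z = (algebraMap k A c) • z :=
          fun z => (algebraMap_smul A c z).symm
        rw [hsm, hsm', map_smul] }
  have hΦinj : Function.Injective Φ := by
    rw [injective_iff_map_eq_zero]
    intro θ hθ0
    have hpθ : ∀ x, p (θ.1 x) = 0 := fun x =>
      LinearMap.congr_fun (congrArg Subtype.val hθ0) x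
    have hr : ∀ x, θ.1 x ∈ LinearMap.range i := by
      intro x
      rw [hex]
      exact hpθ x
    let θ' : M →ₗ[A] Y :=
      (LinearEquiv.ofInjective i hi).symm.toLinearMap ∘ₗ LinearMap.codRestrict (LinearMap.range i) θ.1 hr
    have hθ' : ∀ x, i (θ' x) = θ.1 x := by
      intro x
      have h1 := (LinearEquiv.ofInjective i hi).apply_symm_apply (LinearMap.codRestrict (LinearMap.range i) θ.1 hr x)
      exact congrArg Subtype.val h1
    have hmem : θ' ∈ Hom (A := A) GM GY 0 := by
      intro e x hx
      refine ⟨fun _ => ?_, fun h => absurd h (Nat.not_lt_zero e)⟩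
      have h1 := (Gr.mem_piece_iff _).1 ((θ.2 e x hx).1 (Nat.zero_le e))
      rw [Nat.sub_zero] at h1 ⊢
      refine (Gr.mem_piece_iff _).2 (hi ?_)
      rw [← gi, hθ', h1]
    have h0 : θ' = 0 := by
      rw [hθ] at hmem
      exact (Submodule.mem_bot k).1 hmem
    apply Subtype.ext
    ext x
    show θ.1 x = 0
    rw [← hθ', h0]
    simp
  have hΦsurj : Function.Surjective Φ :=
    (LinearMap.injective_iff_surjective_of_finrank_eq_finrank hdimEq).1 hΦinj
  have hid : (LinearMap.id : M →ₗ[A] M) ∈ Hom (A := A) GM GM 0 := by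
    intro e y hy
    refine ⟨fun _ => by simpa using hy, fun h => absurd h (Nat.not_lt_zero e)⟩
  obtain ⟨θ, hθid⟩ := hΦsurj ⟨LinearMap.id, hid⟩
  have hsplit : p ∘ₗ θ.1 = LinearMap.id := congrArg Subtype.val hθid
  exact Module.Projective.of_split θ.1 p hsplit

/-- JOB R2a. A module generated in degrees `≤ L` has no nonzero homomorphism lowering degrees by `d ≥ L + 1`. -/
theorem hom_bot_of_gen_le (GQ : QAlg k A) (G : Gr k M) (L : ℕ)
    (hgen : Submodule.span A (⋃ t ∈ Finset.range (L + 1), (G.piece t : Set M)) = ⊤)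
    {N : Type u} [AddCommGroup N] [Module A N] [Module k N] [IsScalarTower k A N] [Module.Finite A N]
    (H : Gr k N) (d : ℕ) (hd : L + 1 ≤ d) : Hom (A := A) G H d = ⊥ := by
  rw [Submodule.eq_bot_iff]
  intro u hu
  have hle : (⊤ : Submodule A M) ≤ LinearMap.ker u := by
    rw [← hgen, Submodule.span_le]
    intro x hx
    simp only [Set.mem_iUnion, Finset.mem_range, exists_prop] at hx
    obtain ⟨t, ht, hxt⟩ := hx
    exact (hu t x hxt).2 (by omega)
  ext x
  exact LinearMap.mem_ker.mp (hle Submodule.mem_top)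

/-- JOB R2b. A module generated in degrees `≤ L` has no nonzero degree preserving homomorphism to a module living in degrees `≥ L + 1`. -/
theorem hom_bot_of_low (GQ : QAlg k A) (G : Gr k M) (L : ℕ)
    (hgen : Submodule.span A (⋃ t ∈ Finset.range (L + 1), (G.piece t : Set M)) = ⊤)
    {N : Type u} [AddCommGroup N] [Module A N] [Module k N] [IsScalarTower k A N] [Module.Finite A N]
    (H : Gr k N) (hH : H.LowGE (L + 1)) : Hom (A := A) G H 0 = ⊥ := by
  rw [Submodule.eq_bot_iff]
  intro u hu
  have hle : (⊤ : Submodule A M) ≤ LinearMap.ker u := by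
    rw [← hgen, Submodule.span_le]
    intro x hx
    simp only [Set.mem_iUnion, Finset.mem_range, exists_prop] at hx
    obtain ⟨t, ht, hxt⟩ := hx
    have h1 := (Gr.mem_piece_iff _).1 ((hu t x hxt).1 (Nat.zero_le t))
    rw [Nat.sub_zero, hH t ht] at h1
    exact h1.symm
  ext x
  exact LinearMap.mem_ker.mp (hle Submodule.mem_top)

end Vale.Agent.Lib.P195Q
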