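import Vale.Agent.Lib.P195Q.GapWrap

/-! Named conditions for the statement of the gap theorem. -/

open CategoryTheory Abelian

namespace Vale.Agent.Lib.P195Q

open Vale.Agent.Lib.P195

universe u v

variable {k : Type v} [Field k] {A : Type u} [Ring A] [Algebra k A]

/-- The grading `𝒜` of `A` lives in degrees `≤ s` and its degree zero part is spanned by nonzero orthogonal idempotents
`e_1, ..., e_r` with sum `1`. -/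
def QuiverGrading (𝒜 : ℕ → Submodule k A) (s : ℕ) {r : ℕ} (e : Fin r → A) : Prop :=
  (∀ i, s < i → 𝒜 i = ⊥) ∧ (∀ i, e i ∈ 𝒜 0) ∧ (∀ i, e i ≠ 0) ∧ (∀ i, e i * e i = e i) ∧
    (∀ i j, i ≠ j → e i * e j = 0) ∧ ∑ i, e i = 1 ∧ ∀ a ∈ 𝒜 0, ∃ c : Fin r → k, a = ∑ i, c i • e i

/-- `Ext^i(M, M) = 0` for `1 ≤ i ≤ B` and `Ext^i(M, A) = 0` for `1 ≤ i ≤ B + n`, where `M = S.X 0`. -/
def VanishingRange (S : Syz A) (B n : ℕ) : Prop :=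
  (∀ i, 1 ≤ i → i ≤ B → ∀ x : Ext (S.X 0) (S.X 0) i, x = 0) ∧
    ∀ i, 1 ≤ i → i ≤ B + n → ∀ x : Ext (S.X 0) (ModuleCat.of A A) i, x = 0

/-- The maps of the step `n` of `S` have degree `0`, `P_n` lives in degrees `≤ T` and `X_(n+1)` in degrees `> L`. -/
def GradedStep (S : Syz A) (n : ℕ) [Module k (S.P n)] [Module k (S.X (n + 1))]
    [Module k (S.X n)] (ℳ : ℕ → Submodule k (S.X n)) (ℬ : ℕ → Submodule k (S.P n))
    (𝒴 : ℕ → Submodule k (S.X (n + 1))) (L T : ℕ) : Prop :=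
  (∀ t y, y ∈ 𝒴 t → (S.ι n).hom y ∈ ℬ t) ∧ (∀ t x, x ∈ ℬ t → (S.π n).hom x ∈ ℳ t) ∧
    (∀ t, T < t → ℬ t = ⊥) ∧ ∀ t, t ≤ L → 𝒴 t = ⊥

/-- No nonzero `A`-linear map `X_n → A` lowers degrees by some `d > L`. -/
def NoLowering (S : Syz A) (n : ℕ) [Module k (S.X n)] (𝒜 : ℕ → Submodule k A)
    (ℳ : ℕ → Submodule k (S.X n)) (L : ℕ) : Prop :=
  ∀ d, L + 1 ≤ d → ∀ φ : S.X n →ₗ[A] A,
    (∀ t x, x ∈ ℳ t → (d ≤ t → φ x ∈ 𝒜 (t - d)) ∧ (t < d → φ x = 0)) → φ = 0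

/-- No nonzero `A`-linear map `X_n → X_(n+1)` preserves degrees. -/
def NoDegreeZero (S : Syz A) (n : ℕ) [Module k (S.X n)] [Module k (S.X (n + 1))]
    (ℳ : ℕ → Submodule k (S.X n)) (𝒴 : ℕ → Submodule k (S.X (n + 1))) : Prop :=
  ∀ θ : S.X n →ₗ[A] S.X (n + 1), (∀ t x, x ∈ ℳ t → θ x ∈ 𝒴 t) → θ = 0

/-- `X_n` is generated in degrees `≤ L`. -/
def GenLE (S : Syz A) (n : ℕ) [Module k (S.X n)] (ℳ : ℕ → Submodule k (S.X n)) (L : ℕ) : Prop :=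
  Submodule.span A (⋃ t ∈ Finset.range (L + 1), (ℳ t : Set (S.X n))) = ⊤

end Vale.Agent.Lib.P195Q
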