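import Vale.Agent.Lib.P195Q.Gap
import Vale.Agent.Lib.P195Q.Wrap

/-! The gap theorem along a minimal resolution, from Mathlib's graded structures. -/

set_option linter.style.haveILetI false
set_option linter.unusedVariables false

open CategoryTheory Abelian

namespace Vale.Agent.Lib.P195Q

universe u v

variable {k : Type v} [Field k] {A : Type u} [Ring A] [Nontrivial A] [Algebra k A]
  [FiniteDimensional k A]

/-- A map carrying each piece into the piece of the same degree commutes with the projections of the decompositions. -/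
lemma dProj_map {X X' : Type u} [AddCommGroup X] [Module k X] [AddCommGroup X'] [Module k X']
    (ℳ : ℕ → Submodule k X) (ℬ : ℕ → Submodule k X') [DirectSum.Decomposition ℳ]
    [DirectSum.Decomposition ℬ] (f : X →+ X') (hf : ∀ t x, x ∈ ℳ t → f x ∈ ℬ t) (e : ℕ) (x : X) :
    dProj ℬ e (f x) = f (dProj ℳ e x) := by
  classical
  induction x using DirectSum.Decomposition.inductionOn ℳ with
  | zero => simp
  | @homogeneous i m =>
    by_cases h : i = e
    · subst h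
      rw [dProj_same ℬ (hf i m m.2), dProj_same ℳ m.2]
    · have h1 : dProj ℬ e (f m) = 0 := DirectSum.decompose_of_mem_ne ℬ (hf i m m.2) h
      have h2 : dProj ℳ e (m : X) = 0 := DirectSum.decompose_of_mem_ne ℳ m.2 h
      rw [h1, h2, map_zero]
  | add a b ha hb =>
    rw [map_add, map_add, map_add, map_add, ha, hb]

open Vale.Agent.Lib.P195 in
/-- JOB R3. The gap theorem along a minimal resolution `S` of `M = S.X 0`. Suppose that the terms `X_n`, `P_n`, `X_(n+1)` of the step `n` are graded over `𝒜`, with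
`ι`, `π` of degree `0`, `P_n` in degrees `≤ T`, `X_(n+1)` in degrees `> L`; that no nonzero `A`-linear map `X_n → A` lowers degrees by `d ≥ L + 1`;
and that no nonzero `A`-linear map `X_n → X_(n+1)` preserves degrees. If `Ext^i(M, M) = 0` for `1 ≤ i ≤ B`, `Ext^i(M, A) = 0` for `1 ≤ i ≤ B + n`, `B = 2 T + (r + 1) s + 1`, then
`M` is projective. Proof: the graded algebra gives a `QAlg` with `gr.top = s` as in `projective_of_graded` (helper22), the decompositions give `grOfDecomp` gradings (top `T` for all three,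
`X_n` and `X_(n+1)` live in degrees `≤ T` since `π` is onto and `ι` is injective), `projective_of_gap` makes `X_n` projective, where `Hom` is rewritten via `mem_piece_grOfDecomp`;
the `Ext` shifts and the passage from `X_n` to `X_0` are word for word as in `projective_of_graded_syzygy`. -/
theorem projective_of_graded_gap (𝒜 : ℕ → Submodule k A) [GradedAlgebra 𝒜]
    (s : ℕ) (hs : ∀ i, s < i → 𝒜 i = ⊥) {r : ℕ} (e : Fin r → A) (he : ∀ i, e i ∈ 𝒜 0)
    (he0 : ∀ i, e i ≠ 0) (hee : ∀ i, e i * e i = e i) (heo : ∀ i j, i ≠ j → e i * e j = 0)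
    (he1 : ∑ i, e i = 1) (hspan : ∀ a ∈ 𝒜 0, ∃ c : Fin r → k, a = ∑ i, c i • e i)
    (S : Syz A) (n : ℕ) [Module k (S.X n)] [IsScalarTower k A (S.X n)]
    [Module k (S.P n)] [IsScalarTower k A (S.P n)]
    [Module k (S.X (n + 1))] [IsScalarTower k A (S.X (n + 1))]
    (ℳ : ℕ → Submodule k (S.X n)) (ℬ : ℕ → Submodule k (S.P n)) (𝒴 : ℕ → Submodule k (S.X (n + 1)))
    [DirectSum.Decomposition ℳ] [DirectSum.Decomposition ℬ] [DirectSum.Decomposition 𝒴]
    [SetLike.GradedSMul 𝒜 ℳ] [SetLike.GradedSMul 𝒜 ℬ] [SetLike.GradedSMul 𝒜 𝒴]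
    (gι : ∀ t y, y ∈ 𝒴 t → (S.ι n).hom y ∈ ℬ t) (gπ : ∀ t x, x ∈ ℬ t → (S.π n).hom x ∈ ℳ t)
    (L T : ℕ) (hT : ∀ t, T < t → ℬ t = ⊥) (hY : ∀ t, t ≤ L → 𝒴 t = ⊥)
    (hu : ∀ d, L + 1 ≤ d → ∀ φ : S.X n →ₗ[A] A,
      (∀ t x, x ∈ ℳ t → (d ≤ t → φ x ∈ 𝒜 (t - d)) ∧ (t < d → φ x = 0)) → φ = 0)
    (hθ : ∀ θ : S.X n →ₗ[A] S.X (n + 1), (∀ t x, x ∈ ℳ t → θ x ∈ 𝒴 t) → θ = 0)
    (hMM : ∀ i, 1 ≤ i → i ≤ 2 * T + (r + 1) * s + 1 → ∀ x : Ext (S.X 0) (S.X 0) i, x = 0)
    (hMA : ∀ i, 1 ≤ i → i ≤ 2 * T + (r + 1) * s + 1 + n →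
      ∀ x : Ext (S.X 0) (ModuleCat.of A A) i, x = 0) :
    Module.Projective A (S.X 0) := by
  classical
  haveI hfX : Module.Finite A (S.X n) := S.finX n
  haveI hfP : Module.Finite A (S.P n) := S.finP n
  haveI hfY : Module.Finite A (S.X (n + 1)) := S.finX (n + 1)
  let GQ : QAlg k A :=
    { gr := grOfDecomp 𝒜 s hs
      mul_mem := by
        intro i j a b ha hb
        rw [mem_piece_grOfDecomp] at ha hb ⊢
        exact SetLike.GradedMul.mul_mem ha hb
      r := r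
      e := e
      e_mem := fun i => (mem_piece_grOfDecomp 𝒜 s hs 0 (e i)).2 (he i)
      e_ne := he0
      e_mul_self := hee
      e_mul_ne := heo
      sum_e := he1
      span := by
        intro a ha
        rw [mem_piece_grOfDecomp] at ha
        exact hspan a ha }
  have hιinj := S.ι_injective n
  have hπsurj := S.π_surjective n
  have hdπ : ∀ e x, dProj ℳ e ((S.π n).hom x) = (S.π n).hom (dProj ℬ e x) := fun e x =>
    dProj_map ℬ ℳ (S.π n).hom.toAddMonoidHom gπ e x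
  have hdι : ∀ e y, dProj ℬ e ((S.ι n).hom y) = (S.ι n).hom (dProj 𝒴 e y) := fun e y =>
    dProj_map 𝒴 ℬ (S.ι n).hom.toAddMonoidHom gι e y
  have hTℳ : ∀ t, T < t → ℳ t = ⊥ := by
    intro t ht
    rw [eq_bot_iff]
    intro x hx
    obtain ⟨y, rfl⟩ := hπsurj x
    rw [Submodule.mem_bot, ← dProj_same ℳ hx, hdπ]
    have h0 : dProj ℬ t y = 0 := by
      have h := dProj_mem ℬ t y
      rw [hT t ht, Submodule.mem_bot] at h
      exact h
    rw [h0, map_zero]
  have hT𝒴 : ∀ t, T < t → 𝒴 t = ⊥ := by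
    intro t ht
    rw [eq_bot_iff]
    intro y hy
    have h := gι t y hy
    rw [hT t ht, Submodule.mem_bot] at h
    rw [Submodule.mem_bot]
    exact hιinj (by rw [h, map_zero])
  let GM : Vale.Agent.Lib.P195G.Gr k (S.X n) := grOfDecomp ℳ T hTℳ
  let GP : Vale.Agent.Lib.P195G.Gr k (S.P n) := grOfDecomp ℬ T hT
  let GY : Vale.Agent.Lib.P195G.Gr k (S.X (n + 1)) := grOfDecomp 𝒴 T hT𝒴
  have hGM : IsModQ GQ GM := by
    intro i j a x ha hx
    have ha' : a ∈ 𝒜 i := (mem_piece_grOfDecomp 𝒜 s hs i a).1 ha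
    have hx' : x ∈ ℳ j := (mem_piece_grOfDecomp ℳ T hTℳ j x).1 hx
    exact (mem_piece_grOfDecomp ℳ T hTℳ (i + j) (a • x)).2 (SetLike.GradedSMul.smul_mem ha' hx')
  have hGP : IsModQ GQ GP := by
    intro i j a x ha hx
    have ha' : a ∈ 𝒜 i := (mem_piece_grOfDecomp 𝒜 s hs i a).1 ha
    have hx' : x ∈ ℬ j := (mem_piece_grOfDecomp ℬ T hT j x).1 hx
    exact (mem_piece_grOfDecomp ℬ T hT (i + j) (a • x)).2 (SetLike.GradedSMul.smul_mem ha' hx')
  have hGY : IsModQ GQ GY := by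
    intro i j a x ha hx
    have ha' : a ∈ 𝒜 i := (mem_piece_grOfDecomp 𝒜 s hs i a).1 ha
    have hx' : x ∈ 𝒴 j := (mem_piece_grOfDecomp 𝒴 T hT𝒴 j x).1 hx
    exact (mem_piece_grOfDecomp 𝒴 T hT𝒴 (i + j) (a • x)).2 (SetLike.GradedSMul.smul_mem ha' hx')
  have hLow : GY.LowGE (L + 1) := by
    intro e' he'
    ext y
    have h := dProj_mem 𝒴 e' y
    rw [hY e' (by omega), Submodule.mem_bot] at h
    exact h
  have hu' : ∀ d, L + 1 ≤ d → Vale.Agent.Lib.P195G.Hom (A := A) GM GQ.gr d = ⊥ := by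
    intro d hd
    rw [eq_bot_iff]
    intro φ hφ
    rw [Submodule.mem_bot]
    refine hu d hd φ ?_
    intro t x hx
    have h := hφ t x ((mem_piece_grOfDecomp ℳ T hTℳ t x).2 hx)
    exact ⟨fun h1 => (mem_piece_grOfDecomp 𝒜 s hs _ _).1 (h.1 h1), h.2⟩
  have hθ' : Vale.Agent.Lib.P195G.Hom (A := A) GM GY 0 = ⊥ := by
    rw [eq_bot_iff]
    intro φ hφ
    rw [Submodule.mem_bot]
    refine hθ φ ?_
    intro t x hx
    have h := (hφ t x ((mem_piece_grOfDecomp ℳ T hTℳ t x).2 hx)).1 (Nat.zero_le t)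
    exact (mem_piece_grOfDecomp 𝒴 T hT𝒴 _ _).1 h
  have hXX : ∀ i, 1 ≤ i → i ≤ 2 * T + (r + 1) * s + 1 →
      ∀ x : Ext (ModuleCat.of A (S.X n)) (ModuleCat.of A (S.X n)) i, x = 0 := by
    intro i hi1 hi2 x
    obtain ⟨j, rfl⟩ : ∃ j, i = j + 1 := ⟨i - 1, by omega⟩
    exact S.ext_tri_gen 0 j (fun e' => hMM _ (by omega) (by omega) e')
      (2 * T + (r + 1) * s + 1 + n) hMA n (by omega) x
  have hXA : ∀ i, 1 ≤ i → i ≤ 2 * T + (r + 1) * s + 1 →
      ∀ x : Ext (ModuleCat.of A (S.X n)) (ModuleCat.of A A) i, x = 0 := by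
    intro i hi1 hi2 x
    obtain ⟨j, rfl⟩ : ∃ j, i = j + 1 := ⟨i - 1, by omega⟩
    exact S.ext_first_iter (ModuleCat.of A A) n j (fun e' => hMA _ (by omega) (by omega) e') x
  have hP : Module.Projective A (S.X n) :=
    projective_of_gap GQ GM GP GY hGM hGP hGY (S.projP n) (S.ι n).hom (S.π n).hom hιinj hπsurj
      (S.exact_ι_π n).linearMap_ker_eq.symm (fun e y => hdι e y) (fun e x => hdπ e x)
      L T hLow (fun e' he' => GP.proj_zero e' he') hu' hθ' hXX hXA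
  obtain _ | m := n
  · exact hP
  · haveI : Module.Projective A (S.X (m + 1)) := hP
    have hsub : Subsingleton (S.X (m + 1)) := by
      refine S.subsingleton_of_projective m ?_
      intro x
      exact S.ext_first_iter (ModuleCat.of A A) m 0 (fun e' => hMA _ (by omega) (by omega) e') x
    exact S.projective_of_vanishing (2 * T + (r + 1) * s + 1 + (m + 1)) hMA m (by omega) hsub

open Vale.Agent.Lib.P195 in
/-- JOB R4. The main case of `projective_of_graded_gap`: `X_n` generated in degrees `≤ L`, `X_(n+1)` in degrees `> L`. The hypotheses `hu`, `hθ` of `projective_of_graded_gap`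
hold because each `φ` and each `θ` kills the generators (as `hom_bot_of_gen_le`, `hom_bot_of_low`: on `x ∈ ℳ t`, `t ≤ L`, `φ x = 0` since `t < d`, and `θ x ∈ 𝒴 t = ⊥`). -/
theorem projective_of_graded_gap_gen (𝒜 : ℕ → Submodule k A) [GradedAlgebra 𝒜]
    (s : ℕ) (hs : ∀ i, s < i → 𝒜 i = ⊥) {r : ℕ} (e : Fin r → A) (he : ∀ i, e i ∈ 𝒜 0)
    (he0 : ∀ i, e i ≠ 0) (hee : ∀ i, e i * e i = e i) (heo : ∀ i j, i ≠ j → e i * e j = 0)
    (he1 : ∑ i, e i = 1) (hspan : ∀ a ∈ 𝒜 0, ∃ c : Fin r → k, a = ∑ i, c i • e i)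
    (S : Syz A) (n : ℕ) [Module k (S.X n)] [IsScalarTower k A (S.X n)]
    [Module k (S.P n)] [IsScalarTower k A (S.P n)]
    [Module k (S.X (n + 1))] [IsScalarTower k A (S.X (n + 1))]
    (ℳ : ℕ → Submodule k (S.X n)) (ℬ : ℕ → Submodule k (S.P n)) (𝒴 : ℕ → Submodule k (S.X (n + 1)))
    [DirectSum.Decomposition ℳ] [DirectSum.Decomposition ℬ] [DirectSum.Decomposition 𝒴]
    [SetLike.GradedSMul 𝒜 ℳ] [SetLike.GradedSMul 𝒜 ℬ] [SetLike.GradedSMul 𝒜 𝒴]
    (gι : ∀ t y, y ∈ 𝒴 t → (S.ι n).hom y ∈ ℬ t) (gπ : ∀ t x, x ∈ ℬ t → (S.π n).hom x ∈ ℳ t)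
    (L T : ℕ) (hT : ∀ t, T < t → ℬ t = ⊥) (hY : ∀ t, t ≤ L → 𝒴 t = ⊥)
    (hgen : Submodule.span A (⋃ t ∈ Finset.range (L + 1), (ℳ t : Set (S.X n))) = ⊤)
    (hMM : ∀ i, 1 ≤ i → i ≤ 2 * T + (r + 1) * s + 1 → ∀ x : Ext (S.X 0) (S.X 0) i, x = 0)
    (hMA : ∀ i, 1 ≤ i → i ≤ 2 * T + (r + 1) * s + 1 + n →
      ∀ x : Ext (S.X 0) (ModuleCat.of A A) i, x = 0) :
    Module.Projective A (S.X 0) := by
  classical
  have hu : ∀ d, L + 1 ≤ d → ∀ φ : S.X n →ₗ[A] A,
      (∀ t x, x ∈ ℳ t → (d ≤ t → φ x ∈ 𝒜 (t - d)) ∧ (t < d → φ x = 0)) → φ = 0 := by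
    intro d hd φ hφ
    apply LinearMap.ext_on hgen
    rintro x hx
    simp only [Set.mem_iUnion, SetLike.mem_coe, Finset.mem_range] at hx
    obtain ⟨t, ht, hx⟩ := hx
    simpa using (hφ t x hx).2 (by omega)
  have hθ : ∀ θ : S.X n →ₗ[A] S.X (n + 1), (∀ t x, x ∈ ℳ t → θ x ∈ 𝒴 t) → θ = 0 := by
    intro θ hθ'
    apply LinearMap.ext_on hgen
    rintro x hx
    simp only [Set.mem_iUnion, SetLike.mem_coe, Finset.mem_range] at hx
    obtain ⟨t, ht, hx⟩ := hx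
    have h := hθ' t x hx
    rw [hY t (by omega), Submodule.mem_bot] at h
    simpa using h
  exact projective_of_graded_gap 𝒜 s hs e he he0 hee heo he1 hspan S n ℳ ℬ 𝒴 gι gπ L T hT hY hu hθ
    hMM hMA

end Vale.Agent.Lib.P195Q
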