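import Mathlib

/-! A linear algebra lemma on matrix recurrences. -/

set_option linter.style.haveILetI false
set_option linter.unusedVariables false

namespace Vale.Agent.Lib.P195Q

open Polynomial Finset

/-- The shift of integer sequences. -/
private noncomputable def shiftE : Module.End ℤ (ℕ → ℤ) where
  toFun f := fun c => f (c + 1)
  map_add' _ _ := rfl
  map_smul' _ _ := rfl

private lemma shiftE_pow (n : ℕ) (f : ℕ → ℤ) (c : ℕ) : (shiftE ^ n) f c = f (c + n) := by
  induction n generalizing c with
  | zero => simp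
  | succ n ih =>
    rw [pow_succ', Module.End.mul_apply]
    show (shiftE ^ n) f (c + 1) = _
    rw [ih]
    congr 1
    omega

private lemma aeval_shift_apply (p : ℤ[X]) (n : ℕ) (hn : p.natDegree < n) (f : ℕ → ℤ) (c : ℕ) :
    (aeval shiftE p) f c = ∑ d ∈ range n, p.coeff d * f (c + d) := by
  rw [aeval_eq_sum_range' hn, LinearMap.sum_apply, Finset.sum_apply]
  refine Finset.sum_congr rfl fun d _ => ?_
  rw [LinearMap.smul_apply, Pi.smul_apply, shiftE_pow, smul_eq_mul]

private lemma natDegree_det_le_of {r s : ℕ} (M : Matrix (Fin r) (Fin r) ℤ[X])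
    (h : ∀ i j, (M i j).natDegree ≤ s) : M.det.natDegree ≤ r * s := by
  rw [Matrix.det_apply]
  refine natDegree_sum_le_of_forall_le _ _ fun σ _ => ?_
  refine (natDegree_smul_le _ _).trans ?_
  refine (natDegree_prod_le _ _).trans ?_
  refine (Finset.sum_le_card_nsmul _ _ s fun i _ => h _ _).trans ?_
  simp

/-- JOB Q4. A matrix recurrence with leading coefficient the identity implies a scalar recurrence with
leading coefficient `1`. Let `L t` (`t ≤ s`) be integer `r × r` matrices with `L 0 = 1`, and let the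
vectors `V c` satisfy `∑_(t ≤ s) L t *ᵥ V (c + t) = 0` for `1 ≤ c ≤ K`. Then there are integers
`D 0 = 1, D 1, ..., D (r * s)` with `∑_(d ≤ r s) D d • V (c + d) = 0` for `1 ≤ c`, `c + r * s ≤ K`.
The integers are independent of `V` and `K` (they depend only on `L`): they are the coefficients of
`det (∑_t X^t • L t)`.
Proof: let `𝓛 = ∑_t X^t • L t`, a matrix over `ℤ[X]`, and `Δ = det 𝓛`; `adjugate 𝓛 * 𝓛 = Δ • 1`, the
degree of `Δ` is at most `r * s`, and its constant coefficient is `det (L 0) = 1`. Let a polynomial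
`p` act on sequences `f : ℕ → ℤ` by `(p · f) c = ∑_d p_d * f (c + d)`; `(p * q) · f = p · (q · f)`. If `f c = 0` for
`1 ≤ c ≤ K`, then `(p · f) c = 0` for `1 ≤ c` and `c + natDegree p ≤ K`. Apply it to the entries of the
adjugate. -/
theorem scalar_recurrence {r s : ℕ} (L : ℕ → Matrix (Fin r) (Fin r) ℤ) (hL0 : L 0 = 1) :
    ∃ D : ℕ → ℤ, D 0 = 1 ∧ ∀ (V : ℕ → Fin r → ℤ) (K : ℕ),
      (∀ c, 1 ≤ c → c ≤ K → ∑ t ∈ Finset.range (s + 1), (L t).mulVec (V (c + t)) = 0) →
      ∀ c, 1 ≤ c → c + r * s ≤ K →
        ∑ d ∈ Finset.range (r * s + 1), D d • V (c + d) = 0 := by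
  classical
  let P : Matrix (Fin r) (Fin r) ℤ[X] := fun i j => ∑ t ∈ range (s + 1), monomial t (L t i j)
  have hdeg : ∀ i j, (P i j).natDegree ≤ s := by
    intro i j
    refine natDegree_sum_le_of_forall_le _ _ fun t ht => ?_
    refine (natDegree_monomial_le _).trans ?_
    exact Nat.lt_succ_iff.mp (Finset.mem_range.mp ht)
  have hcoeff : ∀ i j t, t ∈ range (s + 1) → (P i j).coeff t = L t i j := by
    intro i j t ht
    simp only [P, finsetSum_coeff, coeff_monomial]
    rw [Finset.sum_eq_single t]
    · simp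
    · intro b _ hb
      simp [hb]
    · intro h
      exact absurd ht h
  have hΔdeg : P.det.natDegree ≤ r * s := natDegree_det_le_of P hdeg
  have hΔ0 : P.det.coeff 0 = 1 := by
    rw [coeff_zero_eq_eval_zero]
    have h1 : eval 0 P.det = (P.map (evalRingHom 0)).det :=
      RingHom.map_det (evalRingHom (0 : ℤ)) P
    have h2 : P.map (evalRingHom 0) = 1 := by
      ext i j
      rw [Matrix.map_apply, coe_evalRingHom, ← coeff_zero_eq_eval_zero,
        hcoeff i j 0 (by simp), hL0]
    rw [h1, h2, Matrix.det_one]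
  refine ⟨P.det.coeff, hΔ0, ?_⟩
  intro V K hV c hc hcK
  funext j
  let W : Fin r → ℕ → ℤ := fun j c => V c j
  let F : Fin r → ℕ → ℤ := fun i => ∑ j', aeval shiftE (P i j') (W j')
  have hF : ∀ i c, 1 ≤ c → c ≤ K → F i c = 0 := by
    intro i c hc hcK
    have h := congrFun (hV c hc hcK) i
    simp only [Finset.sum_apply, Pi.zero_apply, Matrix.mulVec, dotProduct] at h
    simp only [F, Finset.sum_apply]
    rw [← h, Finset.sum_comm]
    refine Finset.sum_congr rfl fun j' _ => ?_
    rw [aeval_shift_apply (P i j') (s + 1) (Nat.lt_succ_of_le (hdeg i j'))]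
    refine Finset.sum_congr rfl fun t ht => ?_
    rw [hcoeff i j' t ht]
  have hadjdeg : ∀ i j, (P.adjugate i j).natDegree ≤ r * s := by
    intro i j
    rw [Matrix.adjugate_apply]
    refine natDegree_det_le_of _ fun a b => ?_
    rw [Matrix.updateRow_apply]
    split_ifs
    · rw [Pi.single_apply]
      split_ifs <;> simp
    · exact hdeg a b
  have key : aeval shiftE P.det (W j) = ∑ i, aeval shiftE (P.adjugate j i) (F i) := by
    have hm : ∀ j', ∑ i, P.adjugate j i * P i j' = P.det * (1 : Matrix (Fin r) (Fin r) ℤ[X]) j j' := by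
      intro j'
      have := congrFun (congrFun (Matrix.adjugate_mul P) j) j'
      simpa [Matrix.mul_apply, Matrix.smul_apply] using this
    have h1 : ∑ j', aeval shiftE (P.det * (1 : Matrix (Fin r) (Fin r) ℤ[X]) j j') (W j') =
        aeval shiftE P.det (W j) := by
      rw [Finset.sum_eq_single j]
      · simp
      · intro b _ hb
        simp [Matrix.one_apply_ne (Ne.symm hb)]
      · intro h
        exact absurd (Finset.mem_univ j) h
    rw [← h1]
    simp only [F, map_sum]
    rw [Finset.sum_comm]
    refine Finset.sum_congr rfl fun j' _ => ?_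
    rw [← hm j', map_sum, LinearMap.sum_apply]
    refine Finset.sum_congr rfl fun i _ => ?_
    rw [map_mul, Module.End.mul_apply]
  have hk := congrFun key c
  rw [aeval_shift_apply P.det (r * s + 1) (Nat.lt_succ_of_le hΔdeg), Finset.sum_apply] at hk
  have hz : ∀ i, (aeval shiftE (P.adjugate j i)) (F i) c = 0 := by
    intro i
    rw [aeval_shift_apply (P.adjugate j i) (r * s + 1) (Nat.lt_succ_of_le (hadjdeg j i))]
    refine Finset.sum_eq_zero fun d hd => ?_
    have hd' := Nat.lt_succ_iff.mp (Finset.mem_range.mp hd)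
    rw [hF i (c + d) (by omega) (by omega), mul_zero]
  rw [Finset.sum_eq_zero (fun i _ => hz i)] at hk
  simp only [Finset.sum_apply, Pi.smul_apply, smul_eq_mul, Pi.zero_apply]
  exact hk

end Vale.Agent.Lib.P195Q
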