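import Vale.Agent.Lib.P195Q.Descent
import Vale.Agent.Lib.P195Q.Rec

/-! Modules generated in degree zero: the numerical identity produces a projective summand. -/

set_option linter.style.haveILetI false
set_option linter.unusedVariables false

open CategoryTheory Abelian

namespace Vale.Agent.Lib.P195Q

open Vale.Agent.Lib.P195G

universe u v

variable {k : Type v} [Field k] {A : Type u} [Ring A] [Algebra k A] [FiniteDimensional k A]
variable {M : Type u} [AddCommGroup M] [Module A M] [Module k M] [IsScalarTower k A M]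
  [Module.Finite A M]

omit [FiniteDimensional k A] in
/-- Elements of `A_0` in the corner `e_i A_0` are scalar multiples of `e_i`. -/
private lemma corner_zero_eq (GQ : QAlg k A) (i : Fin GQ.r) (a : A) (ha : a ∈ GQ.gr.piece 0)
    (hi : GQ.e i * a = a) : ∃ c : k, a = c • GQ.e i := by
  classical
  obtain ⟨c, hc⟩ := GQ.span a ha
  refine ⟨c i, ?_⟩
  rw [← hi, hc, Finset.mul_sum, Finset.sum_eq_single i]
  · rw [mul_smul_comm, GQ.e_mul_self]
  · intro b _ hb
    rw [mul_smul_comm, GQ.e_mul_ne i b (Ne.symm hb), smul_zero]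
  · intro h
    exact absurd (Finset.mem_univ i) h

omit [FiniteDimensional k A] in
/-- JOB Q5a. `A_0 = k^r`: the corners in degree `0`. -/
theorem cart_zero (GQ : QAlg k A) (i j : Fin GQ.r) :
    cart GQ 0 i j = if i = j then 1 else 0 := by
  classical
  unfold cart
  split_ifs with hij
  · subst hij
    have hsp : corner GQ 0 i i = Submodule.span k {GQ.e i} := by
      apply le_antisymm
      · rintro a ⟨h0, h1, h2⟩
        obtain ⟨c, hc⟩ := corner_zero_eq GQ i a h0 h1
        rw [hc]
        exact Submodule.smul_mem _ c (Submodule.mem_span_singleton_self _)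
      · rw [Submodule.span_singleton_le_iff_mem]
        exact ⟨GQ.e_mem i, GQ.e_mul_self i, GQ.e_mul_self i⟩
    rw [hsp]
    exact finrank_span_singleton (GQ.e_ne i)
  · have hbot : corner GQ 0 i j = ⊥ := by
      rw [eq_bot_iff]
      rintro a ⟨h0, h1, h2⟩
      obtain ⟨c, hc⟩ := corner_zero_eq GQ i a h0 h1
      rw [Submodule.mem_bot, ← h2, hc, smul_mul_assoc, GQ.e_mul_ne i j hij, smul_zero]
    rw [hbot]
    exact finrank_bot k A

omit [FiniteDimensional k A] in
/-- The projections of `a ∈ A e_j` stay in `A e_j`. -/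
private lemma proj_mul_e (GQ : QAlg k A) (j : Fin GQ.r) (e : ℕ) (a : A) (ha : a * GQ.e j = a) :
    GQ.gr.proj e a * GQ.e j = GQ.gr.proj e a := by
  classical
  have h1 : ∀ f, GQ.gr.proj e (GQ.gr.proj f a * GQ.e j) =
      if f = e then GQ.gr.proj e a * GQ.e j else 0 := by
    intro f
    have hmem : GQ.gr.proj f a * GQ.e j ∈ GQ.gr.piece (f + 0) :=
      GQ.mul_mem f 0 _ _ ⟨a, rfl⟩ (GQ.e_mem j)
    have hfix := (GQ.gr.mem_piece_iff).1 hmem
    split_ifs with hfe
    · subst hfe
      simpa using hfix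
    · rw [← hfix]
      exact GQ.gr.proj_ne e (f + 0) _ (by omega)
  have h2 : a * GQ.e j = ∑ f ∈ Finset.range (GQ.gr.top + 1), GQ.gr.proj f a * GQ.e j := by
    rw [← Finset.sum_mul, GQ.gr.sum_proj a]
  have h3 : GQ.gr.proj e a =
      ∑ f ∈ Finset.range (GQ.gr.top + 1), GQ.gr.proj e (GQ.gr.proj f a * GQ.e j) := by
    rw [← map_sum, ← h2, ha]
  by_cases he : e ∈ Finset.range (GQ.gr.top + 1)
  · have h4 : ∑ f ∈ Finset.range (GQ.gr.top + 1), GQ.gr.proj e (GQ.gr.proj f a * GQ.e j)
        = GQ.gr.proj e a * GQ.e j := by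
      rw [Finset.sum_congr rfl fun f _ => h1 f, Finset.sum_ite_eq']
      simp [he]
    exact (h3.trans h4).symm
  · have hz : GQ.gr.proj e = 0 :=
      GQ.gr.proj_zero e (by simpa using he)
    simp [hz]

omit [FiniteDimensional k A] in
/-- JOB Q5b. The restricted grading on the left ideal `A e_j`: its dimension vector is the Cartan
column, and it lives in degrees `≤ GQ.gr.top`. -/
theorem exists_LI_grading (GQ : QAlg k A) (j : Fin GQ.r) :
    ∃ G : Gr k (LI GQ j), IsModQ GQ G ∧ (∀ e, GQ.gr.top < e → G.proj e = 0) ∧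
      (∀ e (a : LI GQ j), (G.proj e a : A) = GQ.gr.proj e a) ∧
      ∀ t i, edim GQ G t i = cart GQ t i j := by
  classical
  let P : ℕ → LI GQ j →ₗ[k] LI GQ j := fun e =>
    { toFun := fun a => ⟨GQ.gr.proj e a, proj_mul_e GQ j e a a.2⟩
      map_add' := fun a b => Subtype.ext (map_add _ _ _)
      map_smul' := fun c a => Subtype.ext (map_smul _ _ _) }
  have hP : ∀ e (a : LI GQ j), (P e a : A) = GQ.gr.proj e a := fun e a => rfl
  let G : Gr k (LI GQ j) :=
    { proj := P
      top := GQ.gr.top
      proj_zero := fun e he => by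
        ext a
        show GQ.gr.proj e (a : A) = 0
        rw [GQ.gr.proj_zero e he]
        rfl
      proj_proj := fun e x => Subtype.ext (GQ.gr.proj_proj e x)
      proj_ne := fun e e' x h => Subtype.ext (GQ.gr.proj_ne e e' x h)
      sum_proj := fun x => by
        apply Subtype.ext
        rw [Submodule.coe_sum]
        exact GQ.gr.sum_proj x }
  have hmem : ∀ e (x : LI GQ j), x ∈ G.piece e ↔ (x : A) ∈ GQ.gr.piece e := by
    intro e x
    rw [G.mem_piece_iff, GQ.gr.mem_piece_iff]
    constructor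
    · intro h
      exact congrArg Subtype.val h
    · intro h
      exact Subtype.ext h
  refine ⟨G, ?_, ?_, fun e a => rfl, ?_⟩
  · intro i e a x ha hx
    rw [hmem] at hx ⊢
    exact GQ.mul_mem i e a x ha hx
  · intro e he
    ext a
    show GQ.gr.proj e (a : A) = 0
    rw [GQ.gr.proj_zero e he]
    rfl
  · intro t i
    unfold edim cart
    refine LinearEquiv.finrank_eq ?_
    exact
      { toFun := fun x => ⟨((x : LI GQ j) : A),
            ((hmem t x.1).1 x.2.1), congrArg Subtype.val x.2.2, x.1.2⟩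
        map_add' := fun a b => rfl
        map_smul' := fun c a => rfl
        invFun := fun a => ⟨⟨a.1, a.2.2.2⟩, (hmem t _).2 a.2.1, Subtype.ext a.2.2.1⟩
        left_inv := fun a => rfl
        right_inv := fun a => rfl }

omit [FiniteDimensional k A] [Module.Finite A M] in
/-- JOB Q5c. For `M` generated in degree `0`, `M_e = 0` for `e > s = GQ.gr.top` (compare
`proj_eq_zero_of_gen` in `P195G/Split`). -/
theorem proj_eq_zero_of_gen (GQ : QAlg k A) (G : Gr k M) (hG : IsModQ GQ G)
    (hgen : Submodule.span A (G.piece 0 : Set M) = ⊤) (e : ℕ) (he : GQ.gr.top < e) :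
    G.proj e = 0 := by
  have key : ∀ x : M, ∀ a : A, G.proj e (a • x) = 0 := by
    intro x
    have hx : x ∈ Submodule.span A (G.piece 0 : Set M) := by rw [hgen]; exact Submodule.mem_top
    induction hx using Submodule.span_induction with
    | mem y hy =>
      intro a
      have hsum : a • y = ∑ i ∈ Finset.range (GQ.gr.top + 1), (GQ.gr.proj i a) • y := by
        rw [← Finset.sum_smul, GQ.gr.sum_proj a]
      rw [hsum, map_sum]
      refine Finset.sum_eq_zero ?_
      intro i hi
      have hi' : i ≤ GQ.gr.top := Nat.lt_succ_iff.mp (Finset.mem_range.mp hi)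
      have hmem : (GQ.gr.proj i a) • y ∈ G.piece (i + 0) :=
        hG i 0 _ y ⟨a, rfl⟩ hy
      have hfix := (G.mem_piece_iff).1 hmem
      rw [← hfix]
      exact G.proj_ne e (i + 0) _ (by omega)
    | zero =>
      intro a
      simp
    | add y z _ _ hy hz =>
      intro a
      rw [smul_add, map_add, hy a, hz a, add_zero]
    | smul b y _ hy =>
      intro a
      rw [smul_smul]
      exact hy (a * b)
  ext x
  simpa using key x 1

omit [FiniteDimensional k A] [Module.Finite A M] in
/-- JOB Q5d. For `M` generated in degree `0`, `Hom_c(M, N) = ⊥` for `c ≥ 1`, so `hdim = 0` (compare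
`hdim_eq_zero_of_gen` in `P195G/Split`). -/
theorem hdim_eq_zero_of_gen (GQ : QAlg k A) (G : Gr k M) (hG : IsModQ GQ G)
    (hgen : Submodule.span A (G.piece 0 : Set M) = ⊤)
    {N : Type u} [AddCommGroup N] [Module A N] [Module k N] [IsScalarTower k A N]
    [Module.Finite A N] (H : Gr k N) (c : ℕ) (hc : 1 ≤ c) : hdim (A := A) G H c = 0 := by
  have hbot : Hom (A := A) G H c = ⊥ := by
    rw [eq_bot_iff]
    intro u hu
    rw [Submodule.mem_bot]
    have hzero : ∀ x : M, x ∈ Submodule.span A (G.piece 0 : Set M) → u x = 0 := by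
      intro x hx
      induction hx using Submodule.span_induction with
      | mem y hy => exact (hu 0 y hy).2 (by omega)
      | zero => simp
      | add y z _ _ hy hz => rw [map_add, hy, hz, add_zero]
      | smul b y _ hy => rw [map_smul, hy, smul_zero]
    ext x
    exact hzero x (by rw [hgen]; exact Submodule.mem_top)
  unfold hdim
  rw [hbot]
  exact finrank_bot k _

/-- The vanishing range. -/
def QAlg.range (GQ : QAlg k A) : ℕ := (GQ.r + 2) * GQ.gr.top + 2

private lemma LI_proj_fin (GQ : QAlg k A) (j : Fin GQ.r) :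
    Module.Projective A (LI GQ j) ∧ Module.Finite A (LI GQ j) := by
  let π : A →ₗ[A] (LI GQ j) :=
    { toFun := fun a => ⟨a * GQ.e j, by
        show a * GQ.e j * GQ.e j = a * GQ.e j
        rw [mul_assoc, GQ.e_mul_self]⟩
      map_add' := fun a b => by
        ext
        simp [add_mul]
      map_smul' := fun c a => by
        ext
        simp [mul_assoc] }
  have hπ : ∀ x : LI GQ j, π x = x := by
    intro x
    ext
    exact x.2
  have hFin : Module.Finite A (LI GQ j) := Module.Finite.of_surjective π fun x => ⟨x, hπ x⟩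
  have hProj : Module.Projective A (LI GQ j) :=
    Module.Projective.of_split (LI GQ j).subtype π (LinearMap.ext fun x => hπ x)
  exact ⟨hProj, hFin⟩

private lemma edim_zero_of_proj (GQ : QAlg k A) {X : Type u} [AddCommGroup X] [Module A X]
    [Module k X] [IsScalarTower k A X] (G : Gr k X) {t : ℕ} (h : G.proj t = 0) (i : Fin GQ.r) :
    edim GQ G t i = 0 := by
  have hb : ePiece GQ G t i = ⊥ := by
    rw [Submodule.eq_bot_iff]
    rintro x ⟨hx, -⟩
    have hx' := (Gr.mem_piece_iff G).1 hx
    rw [h] at hx'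
    simpa using hx'.symm
  rw [edim, hb]
  exact finrank_bot k X

private lemma sum_range_extend (GQ : QAlg k A) {N : Type u} [AddCommGroup N] [Module A N]
    [Module k N] [IsScalarTower k A N] (H : Gr k N) (U V : ℕ) (hUV : U ≤ V)
    (hU : ∀ e, U < e → H.proj e = 0) (b : ℕ → Fin GQ.r → ℤ) (c : ℕ) :
    ∑ t ∈ Finset.range (U + 1), ∑ i, (edim GQ H t i : ℤ) * b (c + t) i
      = ∑ t ∈ Finset.range (V + 1), ∑ i, (edim GQ H t i : ℤ) * b (c + t) i := by
  refine Finset.sum_subset ?_ ?_
  · intro e he
    simp only [Finset.mem_range] at he ⊢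
    omega
  · intro e _ he
    have hlt : U < e := by
      simp only [Finset.mem_range] at he
      omega
    refine Finset.sum_eq_zero fun i _ => ?_
    rw [edim_zero_of_proj GQ H (hU e hlt) i]
    simp

/-- The pairing can be computed over any range of degrees containing the support. -/
private lemma pair_eq_of_bound (GQ : QAlg k A) {N : Type u} [AddCommGroup N] [Module A N]
    [Module k N] [IsScalarTower k A N] (H : Gr k N) (T : ℕ) (hT : ∀ e, T < e → H.proj e = 0)
    (b : ℕ → Fin GQ.r → ℤ) (c : ℕ) :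
    pair GQ H b c = ∑ t ∈ Finset.range (T + 1), ∑ i, (edim GQ H t i : ℤ) * b (c + t) i := by
  unfold pair
  rw [sum_range_extend GQ H H.top (max T H.top) (le_max_right _ _) H.proj_zero b c,
    sum_range_extend GQ H T (max T H.top) (le_max_left _ _) hT b c]

/-- JOB Q5e. The formula: for `M` generated in degree `0` and `N` in degrees `≤ s`, with vanishing of
`Ext^i(M, N)` and `Ext^i(M, A)` for `1 ≤ i ≤ GQ.range`,
`hdim_0(M, N) = ∑_j dim (e_j N_0) · hdim_0(M, A e_j)`. Proof: take `b` from `hdim_eq_pair` (`l = 0`,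
`r = GQ.range`), `V c = b c`, `L t` with entries `L t j i = cart t i j` (so that `L 0 = 1` by `cart_zero`);
with `N = A e_j` (`exists_LI_grading`, `Ext` vanishing from `ext_proj_vanish`) and `hdim_eq_zero_of_gen`,
`∑_t L t *ᵥ V (c + t) = 0` for `1 ≤ c ≤ s + r s`, and `u c j := hdim_c(M, A e_j)` equals the `j`-th entry
for `c = 0`. `scalar_recurrence` gives `D`. Let `n t i = edim N t i`, `ν t i = n (t+1) i - ∑_j cart (t+1) i j * n 0 j`,
`F c = ∑_t ∑_i ν t i * V (c + t) i`. Then for `c ≥ 1`: `F c = hdim_(c-1)(M, N) - ∑_j n 0 j * u (c-1) j`, which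
vanishes for `c ≥ 2`. Finally `∑_d D d * F (1 + d) = ∑_t ∑_i ν t i * (∑_d D d * V (1 + t + d) i) = 0` gives
`F 1 = 0`, which is the claim. -/
theorem hdim_zero_formula (GQ : QAlg k A) (G : Gr k M) (hG : IsModQ GQ G)
    (hgen : Submodule.span A (G.piece 0 : Set M) = ⊤)
    (hMA : ∀ i, 1 ≤ i → i ≤ GQ.range → ∀ e : Ext (ModuleCat.of A M) (ModuleCat.of A A) i, e = 0)
    (GI : ∀ j, Gr k (LI GQ j)) (hGI : ∀ j, IsModQ GQ (GI j))
    (hGIt : ∀ j e, GQ.gr.top < e → (GI j).proj e = 0)
    (hGId : ∀ j t i, edim GQ (GI j) t i = cart GQ t i j)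
    {N : Type u} [AddCommGroup N] [Module A N] [Module k N] [IsScalarTower k A N]
    [Module.Finite A N] (H : Gr k N) (hH : IsModQ GQ H) (htop : ∀ e, GQ.gr.top < e → H.proj e = 0)
    (hMN : ∀ i, 1 ≤ i → i ≤ GQ.range → ∀ e : Ext (ModuleCat.of A M) (ModuleCat.of A N) i, e = 0) :
    hdim (A := A) G H 0 = ∑ j, edim GQ H 0 j * hdim (A := A) G (GI j) 0 := by
  classical
  haveI : ∀ j, Module.Finite A (LI GQ j) := fun j => (LI_proj_fin GQ j).2
  set s := GQ.gr.top with hs
  set R := GQ.range with hR
  have hRs : R = (GQ.r + 2) * s + 2 := rfl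
  have hl0 : G.LowGE 0 := fun e he => absurd he (Nat.not_lt_zero e)
  obtain ⟨b, hb, hpair⟩ := hdim_eq_pair GQ (cart_zero GQ) R 0 G hG hl0
  -- Ext vanishing for the left ideals
  have hMI : ∀ j, ∀ i, 1 ≤ i → i ≤ R →
      ∀ e : Ext (ModuleCat.of A M) (ModuleCat.of A (LI GQ j)) i, e = 0 := by
    intro j i hi1 hi2 e
    obtain ⟨hP, hF⟩ := LI_proj_fin GQ j
    haveI : Module.Projective A (ModuleCat.of A (LI GQ j)) := hP
    haveI : Module.Finite A (ModuleCat.of A (LI GQ j)) := hF
    exact Vale.Agent.Lib.P195.ext_proj_vanish (ModuleCat.of A (LI GQ j)) (hMA i hi1 hi2) e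
  -- formulas for `hdim`
  have hform : ∀ c, c + s < R → (hdim (A := A) G H c : ℤ) =
      ∑ t ∈ Finset.range (s + 1), ∑ i, (edim GQ H t i : ℤ) * b (c + t) i := by
    intro c hc
    rw [hpair H hH hMN s c htop (by omega), pair_eq_of_bound GQ H s htop b c]
  have hformI : ∀ j c, c + s < R → (hdim (A := A) G (GI j) c : ℤ) =
      ∑ t ∈ Finset.range (s + 1), ∑ i, (cart GQ t i j : ℤ) * b (c + t) i := by
    intro j c hc
    rw [hpair (GI j) (hGI j) (hMI j) s c (hGIt j) (by omega),
      pair_eq_of_bound GQ (GI j) s (hGIt j) b c]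
    simp only [hGId]
  -- the matrix recurrence
  let L : ℕ → Matrix (Fin GQ.r) (Fin GQ.r) ℤ := fun t => Matrix.of fun j i => (cart GQ t i j : ℤ)
  have hL0 : L 0 = 1 := by
    ext i j
    simp only [L, Matrix.of_apply, Matrix.one_apply, cart_zero]
    by_cases h : i = j
    · simp [h]
    · have h' : ¬ j = i := fun e => h e.symm
      simp [h, h']
  obtain ⟨D, hD0, hD⟩ := scalar_recurrence (s := s) L hL0
  have hrec : ∀ c, 1 ≤ c → c ≤ (GQ.r + 1) * s + 1 →
      ∑ t ∈ Finset.range (s + 1), (L t).mulVec (b (c + t)) = 0 := by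
    intro c hc1 hc2
    funext j
    have h1 := hformI j c (by rw [hRs]; nlinarith)
    have h2 : (hdim (A := A) G (GI j) c : ℤ) = 0 := by
      exact_mod_cast hdim_eq_zero_of_gen GQ G hG hgen (GI j) c hc1
    rw [h2] at h1
    rw [Finset.sum_apply, Pi.zero_apply, h1]
    refine Finset.sum_congr rfl fun t _ => ?_
    simp [L, Matrix.mulVec, dotProduct]
  have hscal := hD b ((GQ.r + 1) * s + 1) hrec
  -- the combination `F`
  let ν : ℕ → Fin GQ.r → ℤ := fun t i =>
    (edim GQ H (t + 1) i : ℤ) - ∑ j, (cart GQ (t + 1) i j : ℤ) * (edim GQ H 0 j : ℤ)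
  let F : ℕ → ℤ := fun c => ∑ t ∈ Finset.range s, ∑ i, ν t i * b (c + t) i
  have hF : ∀ c, c + s < R → F (c + 1) = (hdim (A := A) G H c : ℤ) -
      ∑ j, (edim GQ H 0 j : ℤ) * (hdim (A := A) G (GI j) c : ℤ) := by
    intro c hc
    rw [hform c hc, Finset.sum_range_succ']
    simp_rw [hformI _ c hc, Finset.sum_range_succ']
    have h0 : ∀ j, ∑ i, (cart GQ 0 i j : ℤ) * b (c + 0) i = b c j := by
      intro j
      simp only [cart_zero, Nat.add_zero]
      simp
    simp_rw [h0]
    simp only [F, ν, Nat.add_zero]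
    have e : ∀ t, c + 1 + t = c + (t + 1) := fun t => by omega
    simp_rw [e, sub_mul, Finset.sum_sub_distrib, mul_add, Finset.sum_add_distrib]
    have swap : ∑ x ∈ Finset.range s, ∑ i, (∑ j, (cart GQ (x + 1) i j : ℤ) * (edim GQ H 0 j : ℤ))
          * b (c + (x + 1)) i
        = ∑ j, (edim GQ H 0 j : ℤ) * ∑ x ∈ Finset.range s, ∑ i,
          (cart GQ (x + 1) i j : ℤ) * b (c + (x + 1)) i := by
      simp_rw [Finset.sum_mul, Finset.mul_sum]
      rw [Finset.sum_congr rfl fun x _ => Finset.sum_comm, Finset.sum_comm]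
      refine Finset.sum_congr rfl fun j _ => ?_
      refine Finset.sum_congr rfl fun x _ => ?_
      refine Finset.sum_congr rfl fun i _ => ?_
      ring
    rw [swap]
    ring
  have hF0 : ∀ d, 1 ≤ d → d + s < R → F (d + 1) = 0 := by
    intro d hd1 hd2
    rw [hF d hd2]
    have h1 : (hdim (A := A) G H d : ℤ) = 0 := by
      exact_mod_cast hdim_eq_zero_of_gen GQ G hG hgen H d hd1
    have h2 : ∀ j, (hdim (A := A) G (GI j) d : ℤ) = 0 := fun j => by
      exact_mod_cast hdim_eq_zero_of_gen GQ G hG hgen (GI j) d hd1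
    simp [h1, h2]
  -- the recurrence applied to `F`
  have hsum : ∑ d ∈ Finset.range (GQ.r * s + 1), D d * F (d + 1) = 0 := by
    simp only [F, Finset.mul_sum]
    rw [Finset.sum_comm]
    refine Finset.sum_eq_zero fun t ht => ?_
    have ht' : t < s := Finset.mem_range.mp ht
    rw [Finset.sum_comm]
    refine Finset.sum_eq_zero fun i _ => ?_
    have h3 := congrFun (hscal (1 + t) (by omega) (by
      have : GQ.r * s + s = (GQ.r + 1) * s := by ring
      omega)) i
    simp only [Finset.sum_apply, Pi.smul_apply, Pi.zero_apply, smul_eq_mul] at h3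
    have h4 : ∑ d ∈ Finset.range (GQ.r * s + 1), D d * (ν t i * b (d + 1 + t) i)
        = ν t i * ∑ d ∈ Finset.range (GQ.r * s + 1), D d * b (1 + t + d) i := by
      rw [Finset.mul_sum]
      refine Finset.sum_congr rfl fun d _ => ?_
      have : d + 1 + t = 1 + t + d := by omega
      rw [this]
      ring
    rw [h4, h3, mul_zero]
  have hF1 : F (0 + 1) = 0 := by
    have h5 : ∑ d ∈ Finset.range (GQ.r * s + 1), D d * F (d + 1) = D 0 * F (0 + 1) := by
      refine Finset.sum_eq_single 0 ?_ ?_
      · intro d hd hne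
        have hd' : d ≤ GQ.r * s := Nat.lt_succ_iff.mp (Finset.mem_range.mp hd)
        rw [hF0 d (by omega) (by rw [hRs]; nlinarith), mul_zero]
      · intro h
        exact absurd (Finset.mem_range.mpr (by omega)) h
    rw [h5, hD0, one_mul] at hsum
    exact hsum
  have h00 : 0 + s < R := by rw [hRs]; nlinarith
  rw [hF 0 h00] at hF1
  have h6 : (hdim (A := A) G H 0 : ℤ) =
      ∑ j, (edim GQ H 0 j : ℤ) * (hdim (A := A) G (GI j) 0 : ℤ) := by linarith
  exact_mod_cast h6


omit [FiniteDimensional k A] in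
/-- Elements of `A_0 e_j` are scalar multiples of `e_j`. -/
private lemma corner_zero_eq_right (GQ : QAlg k A) (j : Fin GQ.r) (a : A) (ha : a ∈ GQ.gr.piece 0)
    (hj : a * GQ.e j = a) : ∃ c : k, a = c • GQ.e j := by
  classical
  obtain ⟨c, hc⟩ := GQ.span a ha
  refine ⟨c j, ?_⟩
  rw [← hj, hc, Finset.sum_mul, Finset.sum_eq_single j]
  · rw [smul_mul_assoc, GQ.e_mul_self]
  · intro b _ hb
    rw [smul_mul_assoc, GQ.e_mul_ne b j hb, smul_zero]
  · intro h
    exact absurd (Finset.mem_univ j) h

omit [FiniteDimensional k A] [Module.Finite A M] in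
/-- A nonzero `Hom_c`: positivity of the dimension gives a nonzero element. -/
private lemma exists_ne_zero_hom' {N : Type u} [AddCommGroup N] [Module A N] [Module k N]
    [IsScalarTower k A N] (G : Gr k M) (H : Gr k N) (c : ℕ)
    (h : hdim (A := A) G H c ≠ 0) : ∃ u : M →ₗ[A] N, u ∈ Hom (A := A) G H c ∧ u ≠ 0 := by
  by_contra hcon
  push Not at hcon
  apply h
  have : Hom (A := A) G H c = ⊥ := by
    rw [Submodule.eq_bot_iff]
    exact hcon
  unfold hdim
  rw [this]
  simp

/-- The space of `A`-linear maps is finite-dimensional over `k`. -/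
private lemma finite_linearMap' {N : Type u} [AddCommGroup N] [Module A N] [Module k N]
    [IsScalarTower k A N] [Module.Finite A N] : Module.Finite k (M →ₗ[A] N) := by
  haveI : Module.Finite k M := Module.Finite.trans A M
  haveI : Module.Finite k N := Module.Finite.trans A N
  let f : (M →ₗ[A] N) →ₗ[k] (M →ₗ[k] N) :=
    { toFun := fun u => u.restrictScalars k
      map_add' := fun _ _ => rfl
      map_smul' := fun _ _ => rfl }
  refine Module.Finite.of_injective f ?_
  intro u v huv
  ext y
  exact LinearMap.congr_fun huv y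

/-- A nonzero element of `Hom` gives a positive dimension. -/
private lemma hdim_pos_of_ne' {N : Type u} [AddCommGroup N] [Module A N] [Module k N]
    [IsScalarTower k A N] [Module.Finite A N] (G : Gr k M) (H : Gr k N) (c : ℕ)
    (u : M →ₗ[A] N) (hu : u ∈ Hom (A := A) G H c) (hne : u ≠ 0) : 0 < hdim (A := A) G H c := by
  haveI : Module.Finite k (M →ₗ[A] N) := finite_linearMap' (k := k) (A := A) (M := M)
  unfold hdim
  apply Nat.pos_of_ne_zero
  intro h0
  have hb : Hom (A := A) G H c = ⊥ := Submodule.finrank_eq_zero.mp h0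
  rw [hb] at hu
  exact hne ((Submodule.mem_bot k).mp hu)

omit [FiniteDimensional k A] [Module.Finite A M] in
/-- Maps in `Hom_0` are compatible with the projections. -/
private lemma hom_zero_proj' {N : Type u} [AddCommGroup N] [Module A N] [Module k N]
    [IsScalarTower k A N] (G : Gr k M) (H : Gr k N) (u : M →ₗ[A] N)
    (hu : u ∈ Hom (A := A) G H 0) (e : ℕ) (y : M) : H.proj e (u y) = u (G.proj e y) := by
  have hy : y = ∑ d ∈ Finset.range (G.top + 1), G.proj d y := (G.sum_proj y).symm
  have hterm : ∀ d, H.proj d (u (G.proj d y)) = u (G.proj d y) := by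
    intro d
    have hm : G.proj d y ∈ G.piece d := ⟨y, rfl⟩
    have := (hu d _ hm).1 (Nat.zero_le d)
    simpa using (Gr.mem_piece_iff H).1 this
  by_cases he : e ≤ G.top
  · conv_lhs => rw [hy]
    rw [map_sum, map_sum]
    rw [Finset.sum_eq_single e]
    · exact hterm e
    · intro d _ hd
      rw [← hterm d]
      exact H.proj_ne e d _ (Ne.symm hd)
    · intro hnot
      exact absurd (Finset.mem_range.mpr (Nat.lt_succ_of_le he)) hnot
  · have hz : G.proj e = 0 := G.proj_zero e (by omega)
    rw [hz]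
    conv_lhs => rw [hy]
    rw [map_sum, map_sum]
    simp only [LinearMap.zero_apply, map_zero]
    apply Finset.sum_eq_zero
    intro d hd
    have hdlt : d ≠ e := by
      intro h
      subst h
      exact he (Nat.lt_succ_iff.mp (Finset.mem_range.mp hd))
    rw [← hterm d]
    exact H.proj_ne e d _ (Ne.symm hdlt)

/-- The grading restricted to the kernel of a map in `Hom_0`. -/
private noncomputable def kerGr' {N : Type u} [AddCommGroup N] [Module A N] [Module k N]
    [IsScalarTower k A N] (G : Gr k M) (H : Gr k N) (φ : M →ₗ[A] N)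
    (hφ : φ ∈ Hom (A := A) G H 0) : Gr k (LinearMap.ker φ) where
  proj e :=
    { toFun := fun y => ⟨G.proj e y, by
        have := hom_zero_proj' G H φ hφ e (y : M)
        rw [LinearMap.mem_ker, ← this, LinearMap.mem_ker.mp y.2, map_zero]⟩
      map_add' := fun a b => by
        apply Subtype.ext
        simp
      map_smul' := fun c a => by
        apply Subtype.ext
        simp }
  top := G.top
  proj_zero e he := by
    ext y
    simp [G.proj_zero e he]
  proj_proj e x := by
    apply Subtype.ext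
    exact G.proj_proj e x
  proj_ne e e' x hne := by
    apply Subtype.ext
    exact G.proj_ne e e' x hne
  sum_proj x := by
    apply Subtype.ext
    rw [Submodule.coe_sum]
    exact G.sum_proj x

private lemma kerGr'_mem_piece_iff {N : Type u} [AddCommGroup N] [Module A N] [Module k N]
    [IsScalarTower k A N] (G : Gr k M) (H : Gr k N) (φ : M →ₗ[A] N)
    (hφ : φ ∈ Hom (A := A) G H 0) (e : ℕ) (y : LinearMap.ker φ) :
    y ∈ (kerGr' G H φ hφ).piece e ↔ (y : M) ∈ G.piece e := by
  rw [Gr.mem_piece_iff, Gr.mem_piece_iff]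
  exact Subtype.ext_iff

/-- JOB Q6. Splitting off. Assume `M` nonzero, generated in degree `0`, and `Ext^i(M, M) = Ext^i(M, A) = 0`
for `1 ≤ i ≤ GQ.range`. `hdim_zero_formula` for `N = M` (`hdim_0(M, M) ≥ 1` since the identity lies in
`Hom_0`) gives `j` and a nonzero `φ ∈ Hom_0(M, A e_j)`. It is nonzero on `M_0` (generation) and maps `M_0` to
`A_0 e_j = k e_j`; after scaling `φ x = e_j` for some `x ∈ M_0`. Conclude: `φ` is a split surjection onto
`A e_j` with section `a ↦ a • x`, `ker φ` carries the restricted grading and is generated in degree `0`: for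
`y ∈ M_0` one has `y - φ y • x ∈ M_0 ∩ ker φ`, because `φ y ∈ k e_j` and `x ∈ M_0`. -/
theorem exists_split (GQ : QAlg k A) (G : Gr k M) (hG : IsModQ GQ G)
    (hgen : Submodule.span A (G.piece 0 : Set M) = ⊤) (hne : Nontrivial M)
    (hMM : ∀ i, 1 ≤ i → i ≤ GQ.range → ∀ e : Ext (ModuleCat.of A M) (ModuleCat.of A M) i, e = 0)
    (hMA : ∀ i, 1 ≤ i → i ≤ GQ.range → ∀ e : Ext (ModuleCat.of A M) (ModuleCat.of A A) i, e = 0) :
    ∃ (j : Fin GQ.r) (φ : M →ₗ[A] LI GQ j) (x : M), ((φ x : LI GQ j) : A) = GQ.e j ∧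
      ∃ G' : Gr k (LinearMap.ker φ), IsModQ GQ G' ∧
        Submodule.span A (G'.piece 0 : Set (LinearMap.ker φ)) = ⊤ := by
  classical
  haveI : Module.Finite k M := Module.Finite.trans A M
  choose GI hGI hGIt hGIc hGId using exists_LI_grading GQ
  have hGtop : ∀ e, GQ.gr.top < e → G.proj e = 0 := fun e he =>
    proj_eq_zero_of_gen GQ G hG hgen e he
  have hform := hdim_zero_formula GQ G hG hgen hMA GI hGI hGIt hGId G hG hGtop hMM
  have hid_mem : (LinearMap.id : M →ₗ[A] M) ∈ Hom (A := A) G G 0 := by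
    intro e y hy
    refine ⟨fun _ => by simpa using hy, fun h => absurd h (Nat.not_lt_zero e)⟩
  have hidne : (LinearMap.id : M →ₗ[A] M) ≠ 0 := by
    obtain ⟨a, ha⟩ := exists_ne (0 : M)
    intro h
    exact ha (by simpa using LinearMap.congr_fun h a)
  have hpM : 0 < hdim (A := A) G G 0 := hdim_pos_of_ne' G G 0 _ hid_mem hidne
  have hex : ∃ j, hdim (A := A) G (GI j) 0 ≠ 0 := by
    by_contra hcon
    push Not at hcon
    rw [hform, Finset.sum_eq_zero (fun j _ => by rw [hcon j, mul_zero])] at hpM
    exact lt_irrefl 0 hpM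
  obtain ⟨j, hj⟩ := hex
  obtain ⟨φ, hφ, hφne⟩ := exists_ne_zero_hom' G (GI j) 0 hj
  have hex' : ∃ x ∈ G.piece 0, φ x ≠ 0 := by
    by_contra hcon
    push Not at hcon
    apply hφne
    have hle : (⊤ : Submodule A M) ≤ LinearMap.ker φ := by
      rw [← hgen, Submodule.span_le]
      intro y hy
      exact hcon y hy
    ext y
    exact congrArg Subtype.val (LinearMap.mem_ker.mp (hle (Submodule.mem_top)))
  obtain ⟨x0, hx0, hφx0⟩ := hex'
  have hφ0 : ∀ y ∈ G.piece 0, ((φ y : LI GQ j) : A) ∈ GQ.gr.piece 0 := by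
    intro y hy
    have h1 : φ y ∈ (GI j).piece 0 := by simpa using (hφ 0 y hy).1 le_rfl
    rw [Gr.mem_piece_iff] at h1
    rw [Gr.mem_piece_iff, ← hGIc j 0 (φ y), h1]
  obtain ⟨c, hc⟩ := corner_zero_eq_right GQ j _ (hφ0 x0 hx0) (φ x0).2
  have hcne : c ≠ 0 := by
    rintro rfl
    apply hφx0
    apply Subtype.ext
    rw [hc, zero_smul]
    rfl
  set x : M := c⁻¹ • x0 with hx_def
  have hx : x ∈ G.piece 0 := Submodule.smul_mem _ _ hx0
  have hφx : ((φ x : LI GQ j) : A) = GQ.e j := by
    have h1 : x = algebraMap k A c⁻¹ • x0 := by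
      rw [hx_def, algebraMap_smul]
    rw [h1, map_smul]
    show algebraMap k A c⁻¹ * ((φ x0 : LI GQ j) : A) = GQ.e j
    rw [hc, mul_smul_comm, ← Algebra.smul_def, smul_smul, mul_inv_cancel₀ hcne, one_smul]
  have hsplit : ∀ y : M, φ (((φ y : LI GQ j) : A) • x) = φ y := by
    intro y
    rw [map_smul]
    apply Subtype.ext
    show ((φ y : LI GQ j) : A) * ((φ x : LI GQ j) : A) = _
    rw [hφx]
    exact (φ y).2
  refine ⟨j, φ, x, hφx, kerGr' G (GI j) φ hφ, ?_, ?_⟩
  · intro i e a y ha hy
    rw [kerGr'_mem_piece_iff] at hy ⊢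
    exact hG i e a y ha hy
  · let π : M →ₗ[A] LinearMap.ker φ :=
      LinearMap.codRestrict (LinearMap.ker φ)
        (LinearMap.id - (LinearMap.toSpanSingleton A M x).comp ((LI GQ j).subtype.comp φ)) (by
          intro y
          simp [hsplit])
    have hπ : ∀ y : M, ((π y : LinearMap.ker φ) : M) = y - ((φ y : LI GQ j) : A) • x := by
      intro y
      simp [π]
    have hπ_id : ∀ y : LinearMap.ker φ, π y = y := by
      intro y
      apply Subtype.ext
      have hy : φ (y : M) = 0 := y.2
      rw [hπ, hy]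
      simp
    have hπ_piece : ∀ y ∈ G.piece 0, π y ∈ (kerGr' G (GI j) φ hφ).piece 0 := by
      intro y hy
      rw [kerGr'_mem_piece_iff, hπ]
      refine Submodule.sub_mem _ hy ?_
      simpa using hG 0 0 _ x (hφ0 y hy) hx
    rw [eq_top_iff]
    intro y _
    have hspan : Submodule.map π (Submodule.span A (G.piece 0 : Set M)) ≤
        Submodule.span A ((kerGr' G (GI j) φ hφ).piece 0 : Set (LinearMap.ker φ)) := by
      rw [Submodule.map_span, Submodule.span_le]
      rintro _ ⟨z, hz, rfl⟩
      exact Submodule.subset_span (hπ_piece z hz)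
    apply hspan
    rw [hgen]
    exact ⟨(y : M), Submodule.mem_top, hπ_id y⟩

omit [Algebra k A] [FiniteDimensional k A] in
/-- `Ext` vanishing passes to a retract in the first variable. -/
private lemma ext_retract_first {X Y Z : ModuleCat.{u} A} (ι : X ⟶ Y) (ρ : Y ⟶ X)
    (h : ι ≫ ρ = 𝟙 X) {i : ℕ} (hv : ∀ e : Ext Y Z i, e = 0) (e : Ext X Z i) : e = 0 := by
  have h1 : e = (Ext.mk₀ (𝟙 X)).comp e (zero_add i) := (Ext.mk₀_id_comp e).symm
  rw [h1, ← h, ← Ext.mk₀_comp_mk₀, Ext.comp_assoc_of_second_deg_zero,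
    hv ((Ext.mk₀ ρ).comp e (zero_add i)), Ext.comp_zero]

omit [Algebra k A] [FiniteDimensional k A] in
/-- `Ext` vanishing passes to a retract in the second variable. -/
private lemma ext_retract_second {X Y Z : ModuleCat.{u} A} (ι : X ⟶ Y) (ρ : Y ⟶ X)
    (h : ι ≫ ρ = 𝟙 X) {i : ℕ} (hv : ∀ e : Ext Z Y i, e = 0) (e : Ext Z X i) : e = 0 := by
  have h1 : e = e.comp (Ext.mk₀ (𝟙 X)) (add_zero i) := (Ext.comp_mk₀_id e).symm
  rw [h1, ← h, ← Ext.mk₀_comp_mk₀, ← Ext.comp_assoc_of_third_deg_zero,
    hv (e.comp (Ext.mk₀ ι) (add_zero i)), Ext.zero_comp]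

omit [FiniteDimensional k A] in
/-- The left ideal `A e_j` is projective. -/
private lemma LI_projective (GQ : QAlg k A) (j : Fin GQ.r) : Module.Projective A (LI GQ j) := by
  let s : A →ₗ[A] LI GQ j :=
    LinearMap.toSpanSingleton A (LI GQ j) ⟨GQ.e j, GQ.e_mul_self j⟩
  refine Module.Projective.of_split (LI GQ j).subtype s ?_
  ext a
  show (a : A) • GQ.e j = a
  exact a.2

/-- The strict form of the induction, on `finrank k M < d`. -/
private theorem projective_of_gen_zero_aux (GQ : QAlg k A) :
    ∀ (d : ℕ) {M : Type u} [AddCommGroup M] [Module A M] [Module k M] [IsScalarTower k A M]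
      [Module.Finite A M] (G : Gr k M), IsModQ GQ G →
      Submodule.span A (G.piece 0 : Set M) = ⊤ → Module.finrank k M < d →
      (∀ i, 1 ≤ i → i ≤ GQ.range → ∀ e : Ext (ModuleCat.of A M) (ModuleCat.of A M) i, e = 0) →
      (∀ i, 1 ≤ i → i ≤ GQ.range → ∀ e : Ext (ModuleCat.of A M) (ModuleCat.of A A) i, e = 0) →
      Module.Projective A M := by
  intro d
  induction d with
  | zero =>
    intro M _ _ _ _ _ G hG hgen hd
    exact absurd hd (Nat.not_lt_zero _)
  | succ n ih =>
    intro M _ _ _ _ _ G hG hgen hd hMM hMA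
    by_cases hne : Nontrivial M
    · obtain ⟨j, φ, x, hφx, G', hG', hgen'⟩ := exists_split GQ G hG hgen hne hMM hMA
      have hsplit : ∀ y : M, φ (((φ y : LI GQ j) : A) • x) = φ y := by
        intro y
        rw [map_smul]
        apply Subtype.ext
        show ((φ y : LI GQ j) : A) * ((φ x : LI GQ j) : A) = _
        rw [hφx]
        exact (φ y).2
      let ρ : M →ₗ[A] LinearMap.ker φ :=
        LinearMap.codRestrict (LinearMap.ker φ)
          (LinearMap.id - (LinearMap.toSpanSingleton A M x).comp ((LI GQ j).subtype.comp φ)) (by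
            intro y
            simp [hsplit])
      have hρ : ∀ m : M, ((ρ m : LinearMap.ker φ) : M) = m - ((φ m : LI GQ j) : A) • x := fun m => by
        simp [ρ]
      have hρι : ∀ y : LinearMap.ker φ, ρ y = y := by
        intro y
        apply Subtype.ext
        rw [hρ]
        have hy : φ (y : M) = 0 := y.2
        rw [hy]
        simp
      have hρsurj : Function.Surjective ρ := fun y => ⟨y, hρι y⟩
      haveI : Module.Finite A (LinearMap.ker φ) := Module.Finite.of_surjective ρ hρsurj
      haveI : Module.Finite k M := Module.Finite.trans A M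
      have hlt : Module.finrank k (LinearMap.ker φ) < Module.finrank k M := by
        have hK : (LinearMap.ker φ).restrictScalars k < ⊤ := by
          rw [lt_top_iff_ne_top]
          intro htop
          have hxm : x ∈ (LinearMap.ker φ).restrictScalars k := by rw [htop]; exact Submodule.mem_top
          have hx0 : φ x = 0 := hxm
          rw [hx0] at hφx
          exact GQ.e_ne j hφx.symm
        have h1 := Submodule.finrank_lt hK.ne
        have h2 : Module.finrank k ((LinearMap.ker φ).restrictScalars k)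
            = Module.finrank k (LinearMap.ker φ) :=
          LinearEquiv.finrank_eq ((Submodule.restrictScalarsEquiv k A M (LinearMap.ker φ)).restrictScalars k)
        omega
      let ιc : ModuleCat.of A (LinearMap.ker φ) ⟶ ModuleCat.of A M :=
        ModuleCat.ofHom (LinearMap.ker φ).subtype
      let ρc : ModuleCat.of A M ⟶ ModuleCat.of A (LinearMap.ker φ) := ModuleCat.ofHom ρ
      have hcat : ιc ≫ ρc = 𝟙 _ := by
        ext y
        exact congrArg Subtype.val (hρι y)
      have hKK : ∀ i, 1 ≤ i → i ≤ GQ.range →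
          ∀ e : Ext (ModuleCat.of A (LinearMap.ker φ)) (ModuleCat.of A (LinearMap.ker φ)) i,
            e = 0 := by
        intro i h1 h2 e
        refine ext_retract_first ιc ρc hcat (fun e' => ?_) e
        exact ext_retract_second ιc ρc hcat (fun e'' => hMM i h1 h2 e'') e'
      have hKA : ∀ i, 1 ≤ i → i ≤ GQ.range →
          ∀ e : Ext (ModuleCat.of A (LinearMap.ker φ)) (ModuleCat.of A A) i, e = 0 := by
        intro i h1 h2 e
        exact ext_retract_first ιc ρc hcat (fun e' => hMA i h1 h2 e') e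
      haveI hP : Module.Projective A (LinearMap.ker φ) :=
        ih G' hG' hgen' (by omega) hKK hKA
      haveI hP2 : Module.Projective A (LI GQ j) := LI_projective GQ j
      let i : M →ₗ[A] LI GQ j × LinearMap.ker φ := φ.prod ρ
      let s : LI GQ j × LinearMap.ker φ →ₗ[A] M :=
        ((LinearMap.toSpanSingleton A M x).comp (LI GQ j).subtype).coprod (LinearMap.ker φ).subtype
      refine Module.Projective.of_split i s ?_
      ext m
      simp [i, s, hρ]
    · haveI : Subsingleton M := not_nontrivial_iff_subsingleton.mp hne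
      haveI : Module.Free A M := Module.Free.of_subsingleton A M
      exact Module.Projective.of_free

/-- JOB Q7. The induction on `finrank k M`: `M ≅ A e_j ⊕ ker φ`, the `Ext` vanishing passes to the summand
`ker φ` (retract, compare `projective_of_gen_zero` in `P195G/Split`), so `ker φ` is projective by induction,
hence so is `M`, since `A e_j` is projective (a summand of `A`). -/
theorem projective_of_gen_zero (GQ : QAlg k A) :
    ∀ (d : ℕ) {M : Type u} [AddCommGroup M] [Module A M] [Module k M] [IsScalarTower k A M]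
      [Module.Finite A M] (G : Gr k M), IsModQ GQ G →
      Submodule.span A (G.piece 0 : Set M) = ⊤ → Module.finrank k M ≤ d →
      (∀ i, 1 ≤ i → i ≤ GQ.range → ∀ e : Ext (ModuleCat.of A M) (ModuleCat.of A M) i, e = 0) →
      (∀ i, 1 ≤ i → i ≤ GQ.range → ∀ e : Ext (ModuleCat.of A M) (ModuleCat.of A A) i, e = 0) →
      Module.Projective A M := by
  intro d M _ _ _ _ _ G hG hgen hd hMM hMA
  exact projective_of_gen_zero_aux GQ (d + 1) G hG hgen (Nat.lt_succ_of_le hd) hMM hMA

end Vale.Agent.Lib.P195Q
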