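import Vale.Agent.Lib.P195Q.Wrap

/-! The final statement when the syzygy is a direct sum of modules generated in one degree each. -/

set_option linter.style.haveILetI false
set_option linter.unusedVariables false

open CategoryTheory Abelian

namespace Vale.Agent.Lib.P195Q

universe u v

variable {k : Type v} [Field k] {A : Type u} [Ring A] [Nontrivial A] [Algebra k A]
  [FiniteDimensional k A]

omit [Nontrivial A] [Algebra k A] [FiniteDimensional k A] in
/-- `Ext` vanishing passes to a retract in the first variable. -/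
private lemma sum_retract_first {X Y Z : ModuleCat.{u} A} (ι : X ⟶ Y) (ρ : Y ⟶ X)
    (h : ι ≫ ρ = 𝟙 X) {i : ℕ} (hv : ∀ e : Ext Y Z i, e = 0) (e : Ext X Z i) : e = 0 := by
  have h1 : e = (Ext.mk₀ (𝟙 X)).comp e (zero_add i) := (Ext.mk₀_id_comp e).symm
  rw [h1, ← h, ← Ext.mk₀_comp_mk₀, Ext.comp_assoc_of_second_deg_zero,
    hv ((Ext.mk₀ ρ).comp e (zero_add i)), Ext.comp_zero]

omit [Nontrivial A] [Algebra k A] [FiniteDimensional k A] in
/-- `Ext` vanishing passes to a retract in the second variable. -/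
private lemma sum_retract_second {X Y Z : ModuleCat.{u} A} (ι : X ⟶ Y) (ρ : Y ⟶ X)
    (h : ι ≫ ρ = 𝟙 X) {i : ℕ} (hv : ∀ e : Ext Z Y i, e = 0) (e : Ext Z X i) : e = 0 := by
  have h1 : e = e.comp (Ext.mk₀ (𝟙 X)) (add_zero i) := (Ext.comp_mk₀_id e).symm
  rw [h1, ← h, ← Ext.mk₀_comp_mk₀, ← Ext.comp_assoc_of_third_deg_zero,
    hv (e.comp (Ext.mk₀ ι) (add_zero i)), Ext.zero_comp]

open Vale.Agent.Lib.P195 in
/-- JOB Q10. As `projective_of_graded_syzygy`, when the syzygy `S.X n` is a finite direct sum of modules `Z i`, each of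
them graded over `𝒜` (with its own grading) and generated in degree `0`. Proof: as in `projective_of_graded_syzygy`
the hypotheses give `Ext^j(X_n, X_n) = 0` and `Ext^j(X_n, A) = 0` for `1 ≤ j ≤ B = (r + 2) s + 2`. Each `Z i` is a retract
of `X_n`, so `Ext^j(Z i, Z i) = 0` and `Ext^j(Z i, A) = 0` in the same range (retract lemmas as in `P195Q/Split`), and
`projective_of_graded` makes `Z i` projective. So `X_n` is projective, and one concludes as in
`projective_of_graded_syzygy` (`Syz.subsingleton_of_projective`, `Syz.projective_of_vanishing`). -/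
theorem projective_of_graded_syzygy_sum (𝒜 : ℕ → Submodule k A) [GradedAlgebra 𝒜]
    (s : ℕ) (hs : ∀ i, s < i → 𝒜 i = ⊥) {r : ℕ} (e : Fin r → A) (he : ∀ i, e i ∈ 𝒜 0)
    (he0 : ∀ i, e i ≠ 0) (hee : ∀ i, e i * e i = e i) (heo : ∀ i j, i ≠ j → e i * e j = 0)
    (he1 : ∑ i, e i = 1) (hspan : ∀ a ∈ 𝒜 0, ∃ c : Fin r → k, a = ∑ i, c i • e i)
    (S : Syz A) (n : ℕ) (q : ℕ) (Z : Fin q → ModuleCat.{u} A) [∀ i, Module k (Z i)]
    [∀ i, IsScalarTower k A (Z i)] (ℳ : ∀ i, ℕ → Submodule k (Z i))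
    [∀ i, DirectSum.Decomposition (ℳ i)] [∀ i, SetLike.GradedSMul 𝒜 (ℳ i)]
    (hgen : ∀ i, Submodule.span A (ℳ i 0 : Set (Z i)) = ⊤)
    (iso : S.X n ≃ₗ[A] ∀ i, Z i)
    (hMM : ∀ i, 1 ≤ i → i ≤ (r + 2) * s + 2 → ∀ x : Ext (S.X 0) (S.X 0) i, x = 0)
    (hMA : ∀ i, 1 ≤ i → i ≤ (r + 2) * s + 2 + n → ∀ x : Ext (S.X 0) (ModuleCat.of A A) i, x = 0) :
    Module.Projective A (S.X 0) := by
  classical
  have hXX : ∀ i, 1 ≤ i → i ≤ (r + 2) * s + 2 →
      ∀ x : Ext (ModuleCat.of A (S.X n)) (ModuleCat.of A (S.X n)) i, x = 0 := by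
    intro i hi1 hi2 x
    obtain ⟨j, rfl⟩ : ∃ j, i = j + 1 := ⟨i - 1, by omega⟩
    exact S.ext_tri_gen 0 j (fun e' => hMM _ (by omega) (by omega) e') ((r + 2) * s + 2 + n) hMA n
      (by omega) x
  have hXA : ∀ i, 1 ≤ i → i ≤ (r + 2) * s + 2 →
      ∀ x : Ext (ModuleCat.of A (S.X n)) (ModuleCat.of A A) i, x = 0 := by
    intro i hi1 hi2 x
    obtain ⟨j, rfl⟩ : ∃ j, i = j + 1 := ⟨i - 1, by omega⟩
    exact S.ext_first_iter (ModuleCat.of A A) n j (fun e' => hMA _ (by omega) (by omega) e') x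
  haveI hfin : Module.Finite A (S.X n) := S.finX n
  have hZ : ∀ t, Module.Projective A (Z t) := by
    intro t
    let ιt : (Z t) →ₗ[A] (S.X n) :=
      iso.symm.toLinearMap ∘ₗ LinearMap.single A (fun i => Z i) t
    let ρt : (S.X n) →ₗ[A] (Z t) := LinearMap.proj t ∘ₗ iso.toLinearMap
    have hcomp : ∀ x, ρt (ιt x) = x := by
      intro x
      simp [ιt, ρt]
    let ιc : ModuleCat.of A (Z t) ⟶ ModuleCat.of A (S.X n) := ModuleCat.ofHom ιt
    let ρc : ModuleCat.of A (S.X n) ⟶ ModuleCat.of A (Z t) := ModuleCat.ofHom ρt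
    have hcat : ιc ≫ ρc = 𝟙 _ := by
      ext x
      exact hcomp x
    haveI : Module.Finite A (Z t) := Module.Finite.of_surjective ρt (fun x => ⟨ιt x, hcomp x⟩)
    refine projective_of_graded 𝒜 s hs e he he0 hee heo he1 hspan (ℳ t) (hgen t) ?_ ?_
    · intro i h1 h2 x
      refine sum_retract_first ιc ρc hcat (fun e' => ?_) x
      exact sum_retract_second ιc ρc hcat (fun e'' => hXX i h1 h2 e'') e'
    · intro i h1 h2 x
      exact sum_retract_first ιc ρc hcat (fun e' => hXA i h1 h2 e') x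
  have hP : Module.Projective A (S.X n) := by
    haveI := hZ
    haveI : Module.Projective A (Π₀ i, Z i) := inferInstance
    exact Module.Projective.of_equiv'
      ((DFinsupp.linearEquivFunOnFintype (R := A) (M := fun i => Z i)).trans iso.symm)
  obtain _ | m := n
  · exact hP
  · haveI : Module.Projective A (S.X (m + 1)) := hP
    have hsub : Subsingleton (S.X (m + 1)) := by
      refine S.subsingleton_of_projective m ?_
      intro x
      exact S.ext_first_iter (ModuleCat.of A A) m 0 (fun e' => hMA _ (by omega) (by omega) e') x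
    exact S.projective_of_vanishing ((r + 2) * s + 2 + (m + 1)) hMA m (by omega) hsub

end Vale.Agent.Lib.P195Q
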